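import Mathlib

open MeasureTheory Filter Topology
open scoped ENNReal

namespace Vale.Agent.P143

variable {V : Type*}

/-- product of gradients along an unordered pair -/
def dd (v φ : V → ℝ) : Sym2 V → ℝ :=
  Sym2.lift ⟨fun a b => (v a - v b) * (φ a - φ b), fun a b => by ring⟩

@[simp] lemma dd_mk (v φ : V → ℝ) (a b : V) : dd v φ s(a, b) = (v a - v b) * (φ a - φ b) := rfl

lemma dd_self_nonneg (v : V → ℝ) (f : Sym2 V) : 0 ≤ dd v v f := by
  induction f using Sym2.ind with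
  | _ a b => simpa using mul_self_nonneg _

/-- Dirichlet energy on a finite set of edges with log-conductances `h` -/
noncomputable def energy (S : Finset (Sym2 V)) (h : Sym2 V → ℝ) (v : V → ℝ) : ℝ :=
  ∑ f ∈ S, Real.exp (h f) * dd v v f

lemma energy_nonneg (S : Finset (Sym2 V)) (h : Sym2 V → ℝ) (v : V → ℝ) : 0 ≤ energy S h v :=
  Finset.sum_nonneg fun f _ => mul_nonneg (Real.exp_pos _).le (dd_self_nonneg v f)

lemma energy_mono {S S' : Finset (Sym2 V)} (hS : S ⊆ S') (h : Sym2 V → ℝ) (v : V → ℝ) :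
    energy S h v ≤ energy S' h v :=
  Finset.sum_le_sum_of_subset_of_nonneg hS fun f _ _ =>
    mul_nonneg (Real.exp_pos _).le (dd_self_nonneg v f)

lemma energy_le_mul {S : Finset (Sym2 V)} {h h' : Sym2 V → ℝ} {t : ℝ}
    (hh : ∀ f ∈ S, h f ≤ h' f + t) (v : V → ℝ) :
    energy S h v ≤ Real.exp t * energy S h' v := by
  unfold energy
  rw [Finset.mul_sum]
  refine Finset.sum_le_sum fun f hf => ?_
  rw [← mul_assoc, ← Real.exp_add]
  refine mul_le_mul_of_nonneg_right (Real.exp_le_exp.2 ?_) (dd_self_nonneg v f)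
  linarith [hh f hf]

/-- effective conductance across `e` in the finite network `S` -/
noncomputable def dir (S : Finset (Sym2 V)) (h : Sym2 V → ℝ) (e : Sym2 V) : ℝ≥0∞ :=
  ⨅ v : {v : V → ℝ // dd v v e = 1}, ENNReal.ofReal (energy S h v.1)

lemma dir_mono {S S' : Finset (Sym2 V)} (hS : S ⊆ S') (h : Sym2 V → ℝ) (e : Sym2 V) :
    dir S h e ≤ dir S' h e :=
  iInf_mono fun v => ENNReal.ofReal_le_ofReal (energy_mono hS h v.1)

lemma dir_le_mul {S : Finset (Sym2 V)} {h h' : Sym2 V → ℝ} {t : ℝ}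
    (hh : ∀ f ∈ S, h f ≤ h' f + t) (e : Sym2 V) :
    dir S h e ≤ ENNReal.ofReal (Real.exp t) * dir S h' e := by
  unfold dir
  rw [ENNReal.mul_iInf_of_ne (by simpa using Real.exp_pos t) ENNReal.ofReal_ne_top]
  refine iInf_mono fun v => ?_
  rw [← ENNReal.ofReal_mul (Real.exp_pos t).le]
  exact ENNReal.ofReal_le_ofReal (energy_le_mul hh v.1)

lemma le_dir {S : Finset (Sym2 V)} (h : Sym2 V → ℝ) {e : Sym2 V} (he : e ∈ S) :
    ENNReal.ofReal (Real.exp (h e)) ≤ dir S h e := by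
  refine le_iInf fun v => ENNReal.ofReal_le_ofReal ?_
  have := energy_mono (Finset.singleton_subset_iff.2 he) h v.1
  simpa [energy, v.2] using this

open Classical in
/-- free effective conductance across `e` in the network `𝓔` -/
noncomputable def cond (𝓔 : Set (Sym2 V)) (h : Sym2 V → ℝ) (e : Sym2 V) : ℝ≥0∞ :=
  ⨆ S : Finset (Sym2 V), if (S : Set (Sym2 V)) ⊆ 𝓔 then dir S h e else 0

lemma dir_le_cond {𝓔 : Set (Sym2 V)} {S : Finset (Sym2 V)} (hS : (S : Set (Sym2 V)) ⊆ 𝓔)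
    (h : Sym2 V → ℝ) (e : Sym2 V) : dir S h e ≤ cond 𝓔 h e := by
  refine le_iSup_of_le S ?_
  simp [hS]

lemma cond_le {𝓔 : Set (Sym2 V)} {h : Sym2 V → ℝ} {e : Sym2 V} {x : ℝ≥0∞}
    (hx : ∀ S : Finset (Sym2 V), (S : Set (Sym2 V)) ⊆ 𝓔 → dir S h e ≤ x) : cond 𝓔 h e ≤ x := by
  refine iSup_le fun S => ?_
  split_ifs with hS
  · exact hx S hS
  · exact zero_le

lemma cond_coe (S : Finset (Sym2 V)) (h : Sym2 V → ℝ) (e : Sym2 V) :
    cond (S : Set (Sym2 V)) h e = dir S h e :=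
  le_antisymm (cond_le fun _ hS' => dir_mono (Finset.coe_subset.1 hS') h e)
    (dir_le_cond subset_rfl h e)

lemma cond_le_mul {𝓔 : Set (Sym2 V)} {h h' : Sym2 V → ℝ} {t : ℝ}
    (hh : ∀ f, h f ≤ h' f + t) (e : Sym2 V) :
    cond 𝓔 h e ≤ ENNReal.ofReal (Real.exp t) * cond 𝓔 h' e :=
  cond_le fun _ hS => (dir_le_mul (fun f _ => hh f) e).trans
    (mul_le_mul_right (dir_le_cond hS h' e) _)

lemma le_cond {𝓔 : Set (Sym2 V)} (h : Sym2 V → ℝ) {e : Sym2 V} (he : e ∈ 𝓔) :
    ENNReal.ofReal (Real.exp (h e)) ≤ cond 𝓔 h e :=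
  (le_dir h (Finset.mem_singleton_self e)).trans (dir_le_cond (by simpa using he) h e)

open Classical in
/-- probability that `e` belongs to the weighted free spanning forest of the network `𝓔` -/
noncomputable def marg (𝓔 : Set (Sym2 V)) (h : Sym2 V → ℝ) (e : Sym2 V) : ℝ :=
  if e ∈ 𝓔 then Real.exp (h e) / (cond 𝓔 h e).toReal else 0

lemma marg_nonneg (𝓔 : Set (Sym2 V)) (h : Sym2 V → ℝ) (e : Sym2 V) : 0 ≤ marg 𝓔 h e := by
  unfold marg
  split_ifs
  · exact div_nonneg (Real.exp_pos _).le ENNReal.toReal_nonneg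
  · exact le_rfl

lemma exp_le_cond_toReal {𝓔 : Set (Sym2 V)} (h : Sym2 V → ℝ) {e : Sym2 V} (he : e ∈ 𝓔)
    (hne : cond 𝓔 h e ≠ ⊤) : Real.exp (h e) ≤ (cond 𝓔 h e).toReal := by
  have := ENNReal.toReal_mono hne (le_cond h he)
  rwa [ENNReal.toReal_ofReal (Real.exp_pos _).le] at this

lemma marg_le_one (𝓔 : Set (Sym2 V)) (h : Sym2 V → ℝ) (e : Sym2 V) : marg 𝓔 h e ≤ 1 := by
  unfold marg
  split_ifs with he
  · by_cases hne : cond 𝓔 h e = ⊤
    · simp [hne]
    · have := exp_le_cond_toReal h he hne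
      rw [div_le_one (lt_of_lt_of_le (Real.exp_pos _) this)]
      exact this
  · exact zero_le_one

lemma marg_le_mul {𝓔 : Set (Sym2 V)} {h h' : Sym2 V → ℝ} {t : ℝ}
    (hh : ∀ f, |h f - h' f| ≤ t) (e : Sym2 V) :
    marg 𝓔 h e ≤ Real.exp (2 * t) * marg 𝓔 h' e := by
  unfold marg
  split_ifs with he
  · by_cases hne : cond 𝓔 h e = ⊤
    · simp only [hne, ENNReal.toReal_top, div_zero]
      positivity
    · have h1 : cond 𝓔 h' e ≤ ENNReal.ofReal (Real.exp t) * cond 𝓔 h e :=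
        cond_le_mul (fun f => by linarith [(abs_le.1 (hh f)).1]) e
      have hne2 : ENNReal.ofReal (Real.exp t) * cond 𝓔 h e ≠ ⊤ :=
        ENNReal.mul_ne_top ENNReal.ofReal_ne_top hne
      have hne' : cond 𝓔 h' e ≠ ⊤ := ne_top_of_le_ne_top hne2 h1
      have h2 := ENNReal.toReal_mono hne2 h1
      rw [ENNReal.toReal_mul, ENNReal.toReal_ofReal (Real.exp_pos _).le] at h2
      have p1 : 0 < (cond 𝓔 h e).toReal :=
        lt_of_lt_of_le (Real.exp_pos _) (exp_le_cond_toReal h he hne)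
      have p2 : 0 < (cond 𝓔 h' e).toReal :=
        lt_of_lt_of_le (Real.exp_pos _) (exp_le_cond_toReal h' he hne')
      have h3 : Real.exp (h e) ≤ Real.exp t * Real.exp (h' e) := by
        rw [← Real.exp_add]
        exact Real.exp_le_exp.2 (by linarith [(abs_le.1 (hh e)).2])
      rw [← mul_div_assoc, div_le_div_iff₀ p1 p2]
      calc Real.exp (h e) * (cond 𝓔 h' e).toReal
          ≤ (Real.exp t * Real.exp (h' e)) * (Real.exp t * (cond 𝓔 h e).toReal) :=
            mul_le_mul h3 h2 p2.le (by positivity)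
        _ = Real.exp (2 * t) * Real.exp (h' e) * (cond 𝓔 h e).toReal := by
            rw [two_mul, Real.exp_add]; ring
  · simp

lemma marg_sub_le {𝓔 : Set (Sym2 V)} {h h' : Sym2 V → ℝ} {t : ℝ}
    (hh : ∀ f, |h f - h' f| ≤ t) (e : Sym2 V) :
    marg 𝓔 h e - marg 𝓔 h' e ≤ 2 * t := by
  have h1 := marg_le_mul (𝓔 := 𝓔) hh e
  have ht : 0 ≤ t := (abs_nonneg _).trans (hh e)
  have h2 : Real.exp (-(2 * t)) * marg 𝓔 h e ≤ marg 𝓔 h' e := by
    rw [Real.exp_neg, inv_mul_le_iff₀ (Real.exp_pos _)]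
    exact h1
  have h3 : 1 - 2 * t ≤ Real.exp (-(2 * t)) := by
    have := Real.add_one_le_exp (-(2 * t))
    linarith
  have h4 := marg_nonneg 𝓔 h e
  have h5 := marg_le_one 𝓔 h e
  nlinarith

lemma marg_lipschitz {𝓔 : Set (Sym2 V)} {h h' : Sym2 V → ℝ} {t : ℝ}
    (hh : ∀ f, |h f - h' f| ≤ t) (e : Sym2 V) :
    |marg 𝓔 h e - marg 𝓔 h' e| ≤ 2 * t := by
  rw [abs_sub_le_iff]
  exact ⟨marg_sub_le hh e, marg_sub_le (fun f => by rw [abs_sub_comm]; exact hh f) e⟩

/-- the concavity step -/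
lemma dir_add_le [DecidableEq V] {S S' : Finset (Sym2 V)} (hS : S ⊆ S') {h h' : Sym2 V → ℝ}
    {M ε : ℝ} (hM : 0 ≤ M) (hε : 0 ≤ ε) (h1 : ∀ f ∈ S, h' f ≤ h f + ε) (h2 : ∀ f, h' f ≤ h f + M)
    (e : Sym2 V) :
    dir S' h' e + ENNReal.ofReal (Real.exp ε * (Real.exp M - 1)) * dir S h e ≤
      ENNReal.ofReal (Real.exp ε * Real.exp M) * dir S' h e := by
  have hM1 : 0 ≤ Real.exp M - 1 := by linarith [Real.add_one_le_exp M]
  conv_rhs => unfold dir
  rw [ENNReal.mul_iInf_of_ne (by simp; positivity) ENNReal.ofReal_ne_top]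
  refine le_iInf fun v => ?_
  have a1 : dir S' h' e ≤ ENNReal.ofReal (energy S' h' v.1) := iInf_le _ v
  have a2 : dir S h e ≤ ENNReal.ofReal (energy S h v.1) := iInf_le _ v
  refine (add_le_add a1 (mul_le_mul_right a2 _)).trans ?_
  rw [← ENNReal.ofReal_mul (by positivity), ← ENNReal.ofReal_mul (by positivity),
    ← ENNReal.ofReal_add (energy_nonneg _ _ _) (mul_nonneg (by positivity) (energy_nonneg _ _ _))]
  refine ENNReal.ofReal_le_ofReal ?_
  have e1 : energy S' h' v.1 = energy S h' v.1 + energy (S' \ S) h' v.1 := by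
    unfold energy; rw [add_comm, Finset.sum_sdiff hS]
  have e2 : energy S' h v.1 = energy S h v.1 + energy (S' \ S) h v.1 := by
    unfold energy; rw [add_comm, Finset.sum_sdiff hS]
  have b1 := energy_le_mul h1 v.1
  have b2 : energy (S' \ S) h' v.1 ≤ Real.exp (ε + M) * energy (S' \ S) h v.1 :=
    energy_le_mul (fun f _ => by linarith [h2 f]) v.1
  rw [Real.exp_add] at b2
  rw [e1, e2]
  nlinarith

theorem tendsto_cond {𝓔 : Set (Sym2 V)} {𝓔n : ℕ → Set (Sym2 V)} (hsub : ∀ n, 𝓔n n ⊆ 𝓔)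
    (hex : ∀ f ∈ 𝓔, ∀ᶠ n in atTop, f ∈ 𝓔n n) {h : Sym2 V → ℝ} {hn : ℕ → Sym2 V → ℝ}
    (hlim : ∀ f, Tendsto (fun n => hn n f) atTop (𝓝 (h f))) {M : ℝ} (hM : 0 ≤ M)
    (hbd : ∀ n f, hn n f ≤ h f + M) (e : Sym2 V) (hfin : cond 𝓔 h e ≠ ⊤) :
    Tendsto (fun n => cond (𝓔n n) (hn n) e) atTop (𝓝 (cond 𝓔 h e)) := by
  classical
  have hS : ∀ S : Finset (Sym2 V), (S : Set (Sym2 V)) ⊆ 𝓔 → ∀ ε : ℝ, 0 < ε →
      ∀ᶠ n in atTop, (S : Set (Sym2 V)) ⊆ 𝓔n n ∧ ∀ f ∈ S, |hn n f - h f| ≤ ε := by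
    intro S hS ε hε
    refine Eventually.and ?_ ?_
    · have : ∀ᶠ n in atTop, ∀ f ∈ S, f ∈ 𝓔n n :=
        (eventually_all_finset S).2 fun f hf => hex f (hS hf)
      exact this.mono fun n hn f hf => hn f hf
    · refine (eventually_all_finset S).2 fun f _ => ?_
      have := (Metric.tendsto_nhds.1 (hlim f)) ε hε
      exact this.mono fun n hn => by rw [Real.dist_eq] at hn; exact hn.le
  refine tendsto_order.2 ⟨fun a ha => ?_, fun b hb => ?_⟩
  · obtain ⟨S, hSa⟩ := lt_iSup_iff.1 ha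
    have hSE : (S : Set (Sym2 V)) ⊆ 𝓔 := by
      by_contra hc
      simp [hc] at hSa
    simp only [hSE, if_true] at hSa
    have hc : ContinuousAt (fun ε : ℝ => ENNReal.ofReal (Real.exp ε) * a) 0 := by
      refine ENNReal.Tendsto.mul_const ?_ (Or.inr (ne_top_of_lt ha))
      exact (ENNReal.continuous_ofReal.comp Real.continuous_exp).continuousAt
    have hev : ∀ᶠ ε in 𝓝 (0 : ℝ), ENNReal.ofReal (Real.exp ε) * a < dir S h e :=
      hc.eventually (gt_mem_nhds (by simpa using hSa))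
    obtain ⟨ε, hε1, hε2⟩ := ((hev.filter_mono nhdsWithin_le_nhds).and
      (self_mem_nhdsWithin (a := (0 : ℝ)) (s := Set.Ioi 0))).exists
    filter_upwards [hS S hSE ε hε2] with n hn'
    have h1 : dir S h e ≤ ENNReal.ofReal (Real.exp ε) * dir S (hn n) e :=
      dir_le_mul (fun f hf => by linarith [(abs_le.1 (hn'.2 f hf)).1]) e
    have h2 := hε1.trans_le (h1.trans (mul_le_mul_right (dir_le_cond hn'.1 _ e) _))
    exact lt_of_mul_lt_mul_left' h2
  · -- upper bound
    obtain ⟨b', hb1, hb2⟩ := exists_between hb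
    have hb'top : b' ≠ ⊤ := ne_top_of_lt hb2
    set C := (cond 𝓔 h e).toReal with hC
    set B := b'.toReal with hB
    have hCB : C < B := (ENNReal.toReal_lt_toReal hfin hb'top).2 hb1
    have hC0 : 0 ≤ C := ENNReal.toReal_nonneg
    have hM1 : 0 ≤ Real.exp M - 1 := by linarith [Real.add_one_le_exp M]
    have hc : ContinuousAt (fun ε : ℝ => Real.exp ε * (C + (Real.exp M - 1) * ε)) 0 := by
      fun_prop
    have hev : ∀ᶠ ε in 𝓝 (0 : ℝ), Real.exp ε * (C + (Real.exp M - 1) * ε) < B :=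
      hc.eventually (gt_mem_nhds (by simpa using hCB))
    obtain ⟨ε, hε1, hε2⟩ := ((hev.filter_mono nhdsWithin_le_nhds).and
      (self_mem_nhdsWithin (a := (0 : ℝ)) (s := Set.Ioi 0))).exists
    have hε : 0 < ε := hε2
    have hex2 : ∃ S : Finset (Sym2 V), (S : Set (Sym2 V)) ⊆ 𝓔 ∧ C - ε ≤ (dir S h e).toReal := by
      by_cases hCε : C - ε < 0
      · exact ⟨∅, by simp, hCε.le.trans ENNReal.toReal_nonneg⟩
      · push Not at hCε
        have : ENNReal.ofReal (C - ε) < cond 𝓔 h e := by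
          rw [← ENNReal.ofReal_toReal hfin, ← hC, ENNReal.ofReal_lt_ofReal_iff (by linarith)]
          linarith
        obtain ⟨S, hSa⟩ := lt_iSup_iff.1 this
        have hSE : (S : Set (Sym2 V)) ⊆ 𝓔 := by
          by_contra hc
          simp [hc] at hSa
        simp only [hSE, if_true] at hSa
        refine ⟨S, hSE, ?_⟩
        have h3 : dir S h e ≠ ⊤ := ne_top_of_le_ne_top hfin (dir_le_cond hSE h e)
        have := ENNReal.toReal_mono h3 hSa.le
        rwa [ENNReal.toReal_ofReal hCε] at this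
    obtain ⟨S, hSE, hSC⟩ := hex2
    have h3 : dir S h e ≠ ⊤ := ne_top_of_le_ne_top hfin (dir_le_cond hSE h e)
    filter_upwards [hS S hSE ε hε] with n hn'
    refine lt_of_le_of_lt (cond_le fun S' hS' => ?_) hb2
    have hU : ((S' ∪ S : Finset (Sym2 V)) : Set (Sym2 V)) ⊆ 𝓔 := by
      rw [Finset.coe_union]
      exact Set.union_subset (hS'.trans (hsub n)) hSE
    have k1 := dir_add_le (S := S) (S' := S' ∪ S) Finset.subset_union_right (h := h) (h' := hn n)
      hM hε.le (fun f hf => by linarith [(abs_le.1 (hn'.2 f hf)).2]) (hbd n) e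
    have k2 := k1.trans (mul_le_mul_right (dir_le_cond hU h e) _)
    have k3 : ENNReal.ofReal (Real.exp ε * Real.exp M) * cond 𝓔 h e ≠ ⊤ :=
      ENNReal.mul_ne_top ENNReal.ofReal_ne_top hfin
    have k4 : dir (S' ∪ S) (hn n) e ≠ ⊤ := ne_top_of_le_ne_top k3 (le_self_add.trans k2)
    have k5 := ENNReal.toReal_mono k3 k2
    rw [ENNReal.toReal_add k4 (ENNReal.mul_ne_top ENNReal.ofReal_ne_top h3), ENNReal.toReal_mul,
      ENNReal.toReal_mul, ENNReal.toReal_ofReal (by positivity),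
      ENNReal.toReal_ofReal (by positivity), ← hC] at k5
    refine (dir_mono (S := S') (S' := S' ∪ S) Finset.subset_union_left _ e).trans ?_
    rw [← ENNReal.toReal_le_toReal k4 hb'top, ← hB]
    have k6 : Real.exp ε * (Real.exp M - 1) * (C - ε) ≤
        Real.exp ε * (Real.exp M - 1) * (dir S h e).toReal :=
      mul_le_mul_of_nonneg_left hSC (by positivity)
    nlinarith

theorem tendsto_marg {𝓔 : Set (Sym2 V)} {𝓔n : ℕ → Set (Sym2 V)} (hsub : ∀ n, 𝓔n n ⊆ 𝓔)
    (hex : ∀ f ∈ 𝓔, ∀ᶠ n in atTop, f ∈ 𝓔n n) {h : Sym2 V → ℝ} {hn : ℕ → Sym2 V → ℝ}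
    (hlim : ∀ f, Tendsto (fun n => hn n f) atTop (𝓝 (h f))) {M : ℝ} (hM : 0 ≤ M)
    (hbd : ∀ n f, hn n f ≤ h f + M) (e : Sym2 V) (hfin : e ∈ 𝓔 → cond 𝓔 h e ≠ ⊤) :
    Tendsto (fun n => marg (𝓔n n) (hn n) e) atTop (𝓝 (marg 𝓔 h e)) := by
  by_cases he : e ∈ 𝓔
  · have h1 := (ENNReal.tendsto_toReal (hfin he)).comp
      (tendsto_cond hsub hex hlim hM hbd e (hfin he))
    have h2 : Tendsto (fun n => Real.exp (hn n e)) atTop (𝓝 (Real.exp (h e))) :=
      (Real.continuous_exp.tendsto _).comp (hlim e)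
    have h3 := h2.div h1 (lt_of_lt_of_le (Real.exp_pos _) (exp_le_cond_toReal h he (hfin he))).ne'
    have h4 : marg 𝓔 h e = Real.exp (h e) / (cond 𝓔 h e).toReal := by simp [marg, he]
    rw [h4]
    refine h3.congr' ?_
    filter_upwards [hex e he] with n hn'
    simp [marg, hn']
  · have h4 : marg 𝓔 h e = 0 := by simp [marg, he]
    have h5 : ∀ n, marg (𝓔n n) (hn n) e = 0 := fun n => by
      have : e ∉ 𝓔n n := fun hc => he (hsub n hc)
      simp [marg, this]
    simp [h4, h5]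

lemma cond_ne_top {G : SimpleGraph V} (hG : ∀ v, (G.neighborSet v).Finite) (h : Sym2 V → ℝ)
    {e : Sym2 V} (he : e ∈ G.edgeSet) : cond G.edgeSet h e ≠ ⊤ := by
  classical
  induction e using Sym2.ind with
  | _ a b =>
  have hab : a ≠ b := ((SimpleGraph.mem_edgeSet G).1 he).ne
  let v : V → ℝ := fun x => if x = a then 1 else 0
  have hv : dd v v s(a, b) = 1 := by simp [v, hab.symm]
  let N : Finset (Sym2 V) := (hG a).toFinset.image fun x => s(a, x)
  refine ne_top_of_le_ne_top (ENNReal.ofReal_ne_top (r := energy N h v)) (cond_le fun S hS => ?_)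
  refine (iInf_le _ (⟨v, hv⟩ : {v : V → ℝ // dd v v s(a, b) = 1})).trans
    (ENNReal.ofReal_le_ofReal ?_)
  refine le_trans (le_of_eq ?_) (energy_mono (Finset.inter_subset_right (s₁ := S)) h v)
  unfold energy
  symm
  refine Finset.sum_subset Finset.inter_subset_left fun f hf hf' => ?_
  have hfN : f ∉ N := fun hc => hf' (Finset.mem_inter.2 ⟨hf, hc⟩)
  have hfE := hS hf
  induction f using Sym2.ind with
  | _ x y =>
  have hxy : G.Adj x y := hfE
  have hx : x ≠ a := by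
    rintro rfl
    exact hfN (Finset.mem_image.2 ⟨y, by simpa using hxy, rfl⟩)
  have hy : y ≠ a := by
    rintro rfl
    exact hfN (Finset.mem_image.2 ⟨x, by simpa using hxy.symm, Sym2.eq_swap⟩)
  simp [v, hx, hy]

/-! ### measurability -/

lemma measurable_dir [Countable V] (S : Finset (Sym2 V)) (e : Sym2 V) :
    Measurable fun h : Sym2 V → ℝ => dir S h e := by
  refine UpperSemicontinuous.measurable ?_
  refine upperSemicontinuous_iInf fun v => Continuous.upperSemicontinuous ?_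
  refine ENNReal.continuous_ofReal.comp ?_
  unfold energy
  fun_prop

lemma measurable_cond [Countable V] (e : Sym2 V) :
    Measurable fun p : Set (Sym2 V) × (Sym2 V → ℝ) => cond p.1 p.2 e := by
  unfold cond
  refine Measurable.iSup fun S => Measurable.ite ?_ ((measurable_dir S e).comp measurable_snd)
    measurable_const
  have : {a : Set (Sym2 V) × (Sym2 V → ℝ) | (S : Set (Sym2 V)) ⊆ a.1} =
      ⋂ f ∈ S, {a | f ∈ a.1} := by
    ext a; simp [Set.subset_def]
  rw [this]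
  refine Finset.measurableSet_biInter S fun f _ => ?_
  exact measurableSet_setOfPred.2 ((measurable_set_mem f).comp measurable_fst)

lemma measurable_marg [Countable V] (e : Sym2 V) :
    Measurable fun p : Set (Sym2 V) × (Sym2 V → ℝ) => marg p.1 p.2 e := by
  unfold marg
  refine Measurable.ite (measurableSet_setOfPred.2 ((measurable_set_mem e).comp measurable_fst)) ?_
    measurable_const
  refine Measurable.div (by fun_prop) (measurable_cond e).ennreal_toReal

/-! ### invariance -/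

variable {W : Type*}

lemma dd_map (σ : V → W) (v φ : W → ℝ) (e : Sym2 V) :
    dd v φ (e.map σ) = dd (v ∘ σ) (φ ∘ σ) e := by
  induction e using Sym2.ind with
  | _ a b => simp

/-- the bijection on unordered pairs induced by a bijection -/
def sym2Equiv (σ : V ≃ W) : Sym2 V ≃ Sym2 W where
  toFun := Sym2.map σ
  invFun := Sym2.map σ.symm
  left_inv e := by simp [Sym2.map_map]
  right_inv e := by simp [Sym2.map_map]

lemma dir_map (σ : V ≃ W) (S : Finset (Sym2 V)) (h : Sym2 W → ℝ) (e : Sym2 V) :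
    dir (S.map (sym2Equiv σ).toEmbedding) h (e.map σ) = dir S (fun f => h (f.map σ)) e := by
  unfold dir
  have key : ∀ v : W → ℝ, energy (S.map (sym2Equiv σ).toEmbedding) h v =
      energy S (fun f => h (f.map σ)) (v ∘ σ) := by
    intro v
    unfold energy
    rw [Finset.sum_map]
    refine Finset.sum_congr rfl fun f _ => ?_
    rw [← dd_map]
    rfl
  refine le_antisymm (le_iInf fun v => ?_) (le_iInf fun v => ?_)
  · refine iInf_le_of_le ⟨v.1 ∘ σ.symm, ?_⟩ ?_
    · rw [dd_map]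
      simpa [Function.comp_def] using v.2
    · rw [key]
      simp [Function.comp_def]
  · refine iInf_le_of_le ⟨v.1 ∘ σ, ?_⟩ ?_
    · rw [← dd_map]; exact v.2
    · rw [key]

lemma marg_map (σ : V ≃ W) {𝓔 : Set (Sym2 V)} {𝓔' : Set (Sym2 W)}
    (hE : ∀ f, f.map σ ∈ 𝓔' ↔ f ∈ 𝓔) (h : Sym2 W → ℝ) (e : Sym2 V) :
    marg 𝓔' h (e.map σ) = marg 𝓔 (fun f => h (f.map σ)) e := by
  have hc : cond 𝓔' h (e.map σ) = cond 𝓔 (fun f => h (f.map σ)) e := by
    unfold cond
    rw [← (Equiv.finsetCongr (sym2Equiv σ)).iSup_comp]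
    refine iSup_congr fun S => ?_
    have : ((Equiv.finsetCongr (sym2Equiv σ) S : Finset (Sym2 W)) : Set (Sym2 W)) ⊆ 𝓔' ↔
        (S : Set (Sym2 V)) ⊆ 𝓔 := by
      simp only [Equiv.finsetCongr_apply, Finset.coe_map, Set.image_subset_iff]
      exact forall₂_congr fun f _ => hE f
    by_cases hS : (S : Set (Sym2 V)) ⊆ 𝓔
    · rw [if_pos hS, if_pos (this.2 hS)]
      exact dir_map σ S h e
    · rw [if_neg hS, if_neg (fun hc => hS (this.1 hc))]
  unfold marg
  by_cases he : e ∈ 𝓔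
  · rw [if_pos he, if_pos ((hE e).2 he), hc]
  · rw [if_neg he, if_neg (fun hc => he ((hE e).1 hc))]

end Vale.Agent.P143
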