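import Mathlib

open MeasureTheory ProbabilityTheory Filter Topology BoundedContinuousFunction

namespace Vale.Agent.P143

/-- The configurations in `{0,1}^{E(G)}` that are indicator functions of the edge set of a
spanning tree `T` of the subgraph `H` of `G`. -/
def spanningTreeConfigs {V : Type*} {G : SimpleGraph V} (H : G.Subgraph) :
    Set (G.edgeSet → Bool) :=
  {ω | ∃ T : G.Subgraph, T ≤ H ∧ T.verts = H.verts ∧ T.coe.IsTree ∧
    ∀ e : G.edgeSet, ω e = true ↔ (e : Sym2 V) ∈ T.edgeSet}

/-- The law on `{0,1}^{E(G)}` of the uniform spanning tree of the subgraph `H`. -/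
noncomputable def ust {V : Type*} {G : SimpleGraph V} (H : G.Subgraph) :
    Measure (G.edgeSet → Bool) :=
  uniformOn (spanningTreeConfigs H)

/-- An increasing sequence of finite connected subgraphs with union `G`. -/
def IsExhaustion {V : Type*} {G : SimpleGraph V} (H : ℕ → G.Subgraph) : Prop :=
  (∀ n, (H n).verts.Finite ∧ (H n).Connected) ∧ Monotone H ∧ ⨆ n, H n = ⊤

/-- `μ` is the free uniform spanning forest measure of `G`: a probability measure on
`{0,1}^{E(G)}` which is the weak limit of the uniform spanning trees along every exhaustion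
(and an exhaustion exists). -/
def IsFUSF {V : Type*} (G : SimpleGraph V) (μ : Measure (G.edgeSet → Bool)) : Prop :=
  IsProbabilityMeasure μ ∧ (∃ H : ℕ → G.Subgraph, IsExhaustion H) ∧
    ∀ H : ℕ → G.Subgraph, IsExhaustion H → ∀ f : (G.edgeSet → Bool) →ᵇ ℝ,
      Tendsto (fun n => ∫ ω, f ω ∂(ust (H n))) atTop (𝓝 (∫ ω, f ω ∂μ))

/-- The law of i.i.d. uniform `[0,1]` labels on `V`. -/
noncomputable def iidLabels (V : Type*) : Measure (V → unitInterval) :=
  Measure.infinitePi fun _ : V => (volume : Measure unitInterval)

end Vale.Agent.P143
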