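import Mathlib

open MeasureTheory Set
open scoped ENNReal

namespace Vale.Agent.P143

/-- Laplace density -/
noncomputable def rho (x : ℝ) : ℝ := Real.exp (-|x|) / 2

lemma rho_pos (x : ℝ) : 0 < rho x := by unfold rho; positivity

lemma measurable_rho : Measurable rho := by unfold rho; fun_prop

/-- Laplace distribution -/
noncomputable def lap : Measure ℝ := volume.withDensity fun x => ENNReal.ofReal (rho x)

/-- log likelihood ratio of the shifted Laplace distribution -/
def lr (s x : ℝ) : ℝ := |x| - |x - s|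

lemma lr_lip (s s' x x' : ℝ) : |lr s x - lr s' x'| ≤ 2 * |x - x'| + |s - s'| := by
  unfold lr
  have h1 := abs_abs_sub_abs_le_abs_sub x x'
  have h2 := abs_abs_sub_abs_le_abs_sub (x - s) (x' - s')
  have h3 : |x - s - (x' - s')| ≤ |x - x'| + |s - s'| := by
    have : x - s - (x' - s') = (x - x') - (s - s') := by ring
    rw [this]
    exact abs_sub _ _
  rw [abs_le] at h1 h2 ⊢
  constructor <;> linarith [h1.1, h1.2, h2.1, h2.2]

lemma abs_lr_le (s x : ℝ) : |lr s x| ≤ |s| := by
  have := abs_abs_sub_abs_le_abs_sub x (x - s)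
  simpa [lr] using this

lemma measurable_lr : Measurable fun p : ℝ × ℝ => lr p.1 p.2 := by unfold lr; fun_prop

lemma rho_sub (s x : ℝ) : rho (x - s) = rho x * Real.exp (lr s x) := by
  unfold rho lr
  rw [div_mul_eq_mul_div, ← Real.exp_add]
  congr 2
  ring

lemma integral_rho : ∫ x, rho x = 1 := by
  have := integral_comp_abs (f := fun x => Real.exp (-x) / 2)
  simp only [rho]
  rw [this, integral_div, integral_exp_neg_Ioi_zero]
  norm_num

lemma integrable_rho : Integrable rho := Integrable.of_integral_ne_zero (by simp [integral_rho])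

instance : IsProbabilityMeasure lap := by
  constructor
  rw [lap, withDensity_apply _ MeasurableSet.univ, Measure.restrict_univ,
    ← ofReal_integral_eq_lintegral_ofReal integrable_rho (ae_of_all _ fun x => (rho_pos x).le),
    integral_rho, ENNReal.ofReal_one]

instance : NullSingletonClass lap := by unfold lap; infer_instance

lemma lintegral_lap {g : ℝ → ℝ≥0∞} (hg : Measurable g) :
    ∫⁻ x, g x ∂lap = ∫⁻ x, ENNReal.ofReal (rho x) * g x := by
  rw [lap, lintegral_withDensity_eq_lintegral_mul _ measurable_rho.ennreal_ofReal hg]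
  rfl

lemma lintegral_lap_shift {g : ℝ → ℝ≥0∞} (hg : Measurable g) (s : ℝ) :
    ∫⁻ x, g (x + s) ∂lap = ∫⁻ x, ENNReal.ofReal (Real.exp (lr s x)) * g x ∂lap := by
  have hm : Measurable fun x => ENNReal.ofReal (Real.exp (lr s x)) := by unfold lr; fun_prop
  rw [lintegral_lap (g := fun x => g (x + s)) (hg.comp (measurable_add_const s)),
    lintegral_lap (g := fun x => ENNReal.ofReal (Real.exp (lr s x)) * g x) (hm.mul hg),
    ← lintegral_sub_right_eq_self _ s]
  refine lintegral_congr fun x => ?_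
  rw [sub_add_cancel, rho_sub, ENNReal.ofReal_mul (rho_pos x).le, mul_assoc]

lemma lap_tail (t : ℝ) : lap {x | t ≤ |x|} ≤ ENNReal.ofReal (2 * Real.exp (-t)) := by
  by_cases ht : t ≤ 0
  · refine prob_le_one.trans ?_
    rw [← ENNReal.ofReal_one]
    refine ENNReal.ofReal_le_ofReal ?_
    have := Real.add_one_le_exp (-t)
    linarith
  push Not at ht
  have key : ∀ (S : Set ℝ) (s : ℝ), MeasurableSet S → (∀ x ∈ S, lr s x ≤ -t) →
      lap ((fun x => x + s) ⁻¹' S) ≤ ENNReal.ofReal (Real.exp (-t)) := by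
    intro S s hS hx
    rw [← lintegral_indicator_one (measurable_add_const s hS)]
    have := lintegral_lap_shift (g := S.indicator 1) (measurable_one.indicator hS) s
    calc ∫⁻ a, ((fun x => x + s) ⁻¹' S).indicator 1 a ∂lap
        = ∫⁻ x, S.indicator 1 (x + s) ∂lap := rfl
      _ = _ := this
      _ ≤ ∫⁻ _, ENNReal.ofReal (Real.exp (-t)) ∂lap := by
          refine lintegral_mono fun x => ?_
          by_cases hxS : x ∈ S
          · simp only [indicator_of_mem hxS, Pi.one_apply, mul_one]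
            exact ENNReal.ofReal_le_ofReal (Real.exp_le_exp.2 (hx x hxS))
          · simp [indicator_of_notMem hxS]
      _ = _ := by simp
  have h1 := key (Ici 0) (-t) measurableSet_Ici (fun x hx => by
    have hx : 0 ≤ x := hx
    simp only [lr, sub_neg_eq_add]
    rw [abs_of_nonneg hx, abs_of_nonneg (by linarith)]
    linarith)
  have h2 := key (Iic 0) t measurableSet_Iic (fun x hx => by
    have hx : x ≤ 0 := hx
    simp only [lr]
    rw [abs_of_nonpos hx, abs_of_nonpos (by linarith)]
    linarith)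
  have hsub : {x : ℝ | t ≤ |x|} ⊆
      ((fun x => x + -t) ⁻¹' Ici 0) ∪ ((fun x => x + t) ⁻¹' Iic 0) := by
    intro x hx
    have hx : t ≤ |x| := hx
    simp only [mem_union, mem_preimage, mem_Ici, mem_Iic]
    rcases le_abs'.1 hx with h | h
    · right; linarith
    · left; linarith
  refine (measure_mono hsub).trans ((measure_union_le _ _).trans ?_)
  rw [two_mul, ENNReal.ofReal_add (Real.exp_pos _).le (Real.exp_pos _).le]
  exact add_le_add h1 h2

/-- distribution function of the Laplace distribution -/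
noncomputable def cdfL (t : ℝ) : ℝ := lap.real (Iic t)

lemma cdfL_sub {a b : ℝ} (hab : a ≤ b) : cdfL b - cdfL a = lap.real (Ioc a b) := by
  unfold cdfL
  rw [← Iic_union_Ioc_eq_Iic hab, measureReal_union (Iic_disjoint_Ioc le_rfl) measurableSet_Ioc]
  ring

lemma cdfL_sub_le {a b M : ℝ} (hab : a ≤ b) (hM : ∀ x ∈ Ioc a b, rho x ≤ M) (hM0 : 0 ≤ M) :
    cdfL b - cdfL a ≤ (b - a) * M := by
  rw [cdfL_sub hab, measureReal_def]
  refine ENNReal.toReal_le_of_le_ofReal (mul_nonneg (by linarith) hM0) ?_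
  rw [lap, withDensity_apply _ measurableSet_Ioc]
  calc ∫⁻ x in Ioc a b, ENNReal.ofReal (rho x) ≤ ∫⁻ _ in Ioc a b, ENNReal.ofReal M :=
        setLIntegral_mono' measurableSet_Ioc fun x hx => ENNReal.ofReal_le_ofReal (hM x hx)
    _ = _ := by
        rw [setLIntegral_const, Real.volume_Ioc, mul_comm, ENNReal.ofReal_mul (by linarith)]

lemma le_cdfL_sub {a b M : ℝ} (hab : a ≤ b) (hM : ∀ x ∈ Ioc a b, M ≤ rho x) :
    (b - a) * M ≤ cdfL b - cdfL a := by
  rw [cdfL_sub hab, measureReal_def]
  refine (ENNReal.ofReal_le_iff_le_toReal (measure_ne_top _ _)).1 ?_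
  rw [lap, withDensity_apply _ measurableSet_Ioc]
  calc ENNReal.ofReal ((b - a) * M) = ∫⁻ _ in Ioc a b, ENNReal.ofReal M := by
        rw [setLIntegral_const, Real.volume_Ioc, ENNReal.ofReal_mul (by linarith), mul_comm]
    _ ≤ ∫⁻ x in Ioc a b, ENNReal.ofReal (rho x) :=
        setLIntegral_mono' measurableSet_Ioc fun x hx => ENNReal.ofReal_le_ofReal (hM x hx)

lemma rho_le_of_near {x t δ : ℝ} (h : |x - t| ≤ δ) : rho x ≤ rho t * Real.exp δ := by
  unfold rho
  rw [div_mul_eq_mul_div, ← Real.exp_add]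
  refine div_le_div_of_nonneg_right (Real.exp_le_exp.2 ?_) (by norm_num)
  have := abs_abs_sub_abs_le_abs_sub x t
  linarith [(abs_le.1 this).1]

lemma le_rho_of_near {x t δ : ℝ} (h : |x - t| ≤ δ) : rho t * Real.exp (-δ) ≤ rho x := by
  have := rho_le_of_near (x := t) (t := x) (δ := δ) (by rwa [abs_sub_comm])
  rw [Real.exp_neg, mul_inv_le_iff₀ (Real.exp_pos _)]
  exact this

lemma cdfL_strictMono : StrictMono cdfL := by
  intro a b hab
  have := le_cdfL_sub (M := rho a * Real.exp (-(b - a))) hab.le fun x hx =>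
    le_rho_of_near (by rw [abs_le]; constructor <;> linarith [hx.1, hx.2])
  have h2 : 0 < (b - a) * (rho a * Real.exp (-(b - a))) :=
    mul_pos (by linarith) (mul_pos (rho_pos a) (Real.exp_pos _))
  linarith

lemma continuous_cdfL : Continuous cdfL := by
  refine (LipschitzWith.of_le_add (f := cdfL) fun a b => ?_).continuous
  rcases le_total a b with h | h
  · have := cdfL_strictMono.monotone h
    linarith [dist_nonneg (x := a) (y := b)]
  · have := cdfL_sub_le (M := 1) h (fun x _ => by
      unfold rho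
      have : Real.exp (-|x|) ≤ 1 := Real.exp_le_one_iff.2 (by simp)
      linarith) zero_le_one
    rw [Real.dist_eq, abs_of_nonneg (by linarith)]
    linarith

/-- distribution function of the mixture -/
noncomputable def mixF (A B s t : ℝ) : ℝ := A * cdfL t + B * cdfL (t - s)

lemma mixF_strictMono {A B : ℝ} (hA : 0 ≤ A) (hB : 0 ≤ B) (hAB : 0 < A + B) (s : ℝ) :
    StrictMono (mixF A B s) := by
  intro a b hab
  have h1 := cdfL_strictMono hab
  have h2 := cdfL_strictMono (sub_lt_sub_right hab s)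
  unfold mixF
  rcases hA.eq_or_lt with rfl | hA'
  · have : 0 < B := by linarith
    nlinarith
  · nlinarith [mul_le_mul_of_nonneg_left h2.le hB]

lemma continuous_mixF (A B s : ℝ) : Continuous (mixF A B s) := by
  unfold mixF
  have := continuous_cdfL
  fun_prop

lemma mixF_between {A B : ℝ} (hA : 0 ≤ A) (hB : 0 ≤ B) (s : ℝ) {δ : ℝ} (hδ : 0 ≤ δ) (t : ℝ) :
    mixF A B (s + δ) t ≤ mixF A B s t ∧ mixF A B s t ≤ mixF A B (s + δ) (t + δ) := by
  unfold mixF
  have h1 := cdfL_strictMono.monotone (show t - (s + δ) ≤ t - s by linarith)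
  have h2 := cdfL_strictMono.monotone (show t ≤ t + δ by linarith)
  rw [show t + δ - (s + δ) = t - s by ring]
  constructor
  · nlinarith [mul_le_mul_of_nonneg_left h1 hB]
  · nlinarith [mul_le_mul_of_nonneg_left h2 hA]

/-- the monotone transport map -/
noncomputable def tr (A B s δ t : ℝ) : ℝ :=
  Classical.epsilon fun y => y ∈ Icc t (t + δ) ∧ mixF A B (s + δ) y = mixF A B s t

lemma tr_spec {A B : ℝ} (hA : 0 ≤ A) (hB : 0 ≤ B) (s : ℝ) {δ : ℝ} (hδ : 0 ≤ δ) (t : ℝ) :
    tr A B s δ t ∈ Icc t (t + δ) ∧ mixF A B (s + δ) (tr A B s δ t) = mixF A B s t := by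
  refine Classical.epsilon_spec (p := fun y => y ∈ Icc t (t + δ) ∧
    mixF A B (s + δ) y = mixF A B s t) ?_
  exact intermediate_value_Icc (by linarith) (continuous_mixF A B (s + δ)).continuousOn
    (mixF_between hA hB s hδ t)

lemma tr_le_iff {A B : ℝ} (hA : 0 ≤ A) (hB : 0 ≤ B) (hAB : 0 < A + B) (s : ℝ) {δ : ℝ}
    (hδ : 0 ≤ δ) (t y : ℝ) : tr A B s δ t ≤ y ↔ mixF A B s t ≤ mixF A B (s + δ) y := by
  rw [← (tr_spec hA hB s hδ t).2, (mixF_strictMono hA hB hAB (s + δ)).le_iff_le]

lemma tr_estimate {A B : ℝ} (hA : 0 ≤ A) (hB : 0 ≤ B) (hAB : 0 < A + B) (s : ℝ) {δ : ℝ}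
    (hδ : 0 ≤ δ) (t : ℝ) :
    |tr A B s δ t - t - δ * (B * Real.exp (lr s t) / (A + B * Real.exp (lr s t)))| ≤
      2 * δ ^ 2 := by
  obtain ⟨⟨h1, h2⟩, h3⟩ := tr_spec hA hB s hδ t
  set y := tr A B s δ t with hy
  set c := Real.exp (lr s t) with hc
  have hc0 : 0 < c := Real.exp_pos _
  have hD : 0 < A + B * c := by
    rcases hA.eq_or_lt with rfl | hA'
    · have : 0 < B := by linarith
      positivity
    · positivity
  have hr := rho_pos t
  have k1 := cdfL_sub_le (M := rho t * Real.exp δ) h1 (fun x hx =>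
    rho_le_of_near (by rw [abs_le]; constructor <;> linarith [hx.1, hx.2])) (by positivity)
  have k2 := le_cdfL_sub (M := rho t * Real.exp (-δ)) h1 (fun x hx =>
    le_rho_of_near (by rw [abs_le]; constructor <;> linarith [hx.1, hx.2]))
  have h4 : y - (s + δ) ≤ t - s := by linarith
  have k3 := cdfL_sub_le (M := rho (t - s) * Real.exp δ) h4 (fun x hx =>
    rho_le_of_near (by rw [abs_le]; constructor <;> linarith [hx.1, hx.2]))
    (mul_pos (rho_pos _) (Real.exp_pos _)).le
  have k4 := le_cdfL_sub (M := rho (t - s) * Real.exp (-δ)) h4 (fun x hx =>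
    le_rho_of_near (by rw [abs_le]; constructor <;> linarith [hx.1, hx.2]))
  rw [rho_sub, ← hc] at k3 k4
  unfold mixF at h3
  set u := y - t with hu
  have hu0 : 0 ≤ u := by linarith
  have hu1 : u ≤ δ := by linarith
  have e1 : t - s - (y - (s + δ)) = δ - u := by rw [hu]; ring
  rw [e1] at k3 k4
  have heq : A * (cdfL y - cdfL t) = B * (cdfL (t - s) - cdfL (y - (s + δ))) := by linarith
  have hq : Real.exp (-δ) = Real.exp (-(2 * δ)) * Real.exp δ := by
    rw [← Real.exp_add]; congr 1; ring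
  have hq1 : 1 - 2 * δ ≤ Real.exp (-(2 * δ)) := by linarith [Real.add_one_le_exp (-(2 * δ))]
  set q := Real.exp (-(2 * δ))
  have hE : 0 < rho t * Real.exp δ := by positivity
  have m1 : A * u * q ≤ B * c * (δ - u) := by
    have a1 := mul_le_mul_of_nonneg_left k2 hA
    have a2 := mul_le_mul_of_nonneg_left k3 hB
    rw [heq, hq] at a1
    have a3 := a1.trans a2
    refine le_of_mul_le_mul_right ?_ hE
    calc A * u * q * (rho t * Real.exp δ) = A * (u * (rho t * (q * Real.exp δ))) := by ring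
      _ ≤ _ := a3
      _ = _ := by ring
  have m2 : B * c * (δ - u) * q ≤ A * u := by
    have a1 := mul_le_mul_of_nonneg_left k4 hB
    have a2 := mul_le_mul_of_nonneg_left k1 hA
    rw [← heq, hq] at a1
    have a3 := a1.trans a2
    refine le_of_mul_le_mul_right ?_ hE
    calc B * c * (δ - u) * q * (rho t * Real.exp δ)
        = B * ((δ - u) * (rho t * c * (q * Real.exp δ))) := by ring
      _ ≤ _ := a3
      _ = _ := by ring
  have hb : 0 ≤ B * c := by positivity
  set b := B * c
  have e2 : u - δ * (b / (A + b)) = (u * (A + b) - δ * b) / (A + b) := by field_simp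
  rw [e2, abs_div, abs_of_pos hD, div_le_iff₀ hD, abs_le]
  have n1 : A * u * (1 - 2 * δ) ≤ A * u * q := mul_le_mul_of_nonneg_left hq1 (by positivity)
  have n2 : b * (δ - u) * (1 - 2 * δ) ≤ b * (δ - u) * q :=
    mul_le_mul_of_nonneg_left hq1 (mul_nonneg hb (by linarith))
  have n3 : A * u * δ ≤ A * δ * δ := by gcongr
  have n4 : b * (δ - u) * δ ≤ b * δ * δ := by gcongr; linarith
  have n5 : 0 ≤ A * δ ^ 2 := by positivity
  have n6 : 0 ≤ b * δ ^ 2 := by positivity
  constructor <;> nlinarith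

/-- the mixture measure -/
noncomputable def mixM (A B s : ℝ) : Measure ℝ :=
  lap.withDensity fun x => ENNReal.ofReal (A + B * Real.exp (lr s x))

lemma mixM_apply {A B : ℝ} (hA : 0 ≤ A) (hB : 0 ≤ B) (s : ℝ) {S : Set ℝ} (hS : MeasurableSet S) :
    mixM A B s S = ENNReal.ofReal A * lap S +
      ENNReal.ofReal B * lap ((fun x => x + s) ⁻¹' S) := by
  have hm : Measurable fun x => ENNReal.ofReal (Real.exp (lr s x)) := by unfold lr; fun_prop
  rw [mixM, withDensity_apply _ hS, ← lintegral_indicator hS,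
    ← lintegral_indicator_one (measurable_add_const s hS), ← lintegral_indicator_one hS]
  have := lintegral_lap_shift (g := S.indicator 1) (measurable_one.indicator hS) s
  have e : ∫⁻ a, ((fun x => x + s) ⁻¹' S).indicator 1 a ∂lap
        = ∫⁻ x, S.indicator 1 (x + s) ∂lap := rfl
  rw [e, this, ← lintegral_const_mul _ (measurable_one.indicator hS),
    ← lintegral_const_mul _ (hm.fun_mul (measurable_one.indicator hS)),
    ← lintegral_add_left ((measurable_one.indicator hS).const_mul _)]
  refine lintegral_congr fun x => ?_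
  by_cases hx : x ∈ S
  · simp only [indicator_of_mem hx, Pi.one_apply, mul_one]
    rw [ENNReal.ofReal_add hA (by positivity), ENNReal.ofReal_mul hB]
  · simp [indicator_of_notMem hx]

lemma mixM_Iic {A B : ℝ} (hA : 0 ≤ A) (hB : 0 ≤ B) (s y : ℝ) :
    mixM A B s (Iic y) = ENNReal.ofReal (mixF A B s y) := by
  rw [mixM_apply hA hB s measurableSet_Iic]
  have : (fun x => x + s) ⁻¹' Iic y = Iic (y - s) := by
    ext x; simp [le_sub_iff_add_le]
  rw [this, mixF, cdfL, cdfL, ENNReal.ofReal_add (by positivity) (by positivity),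
    ENNReal.ofReal_mul hA, ENNReal.ofReal_mul hB, ofReal_measureReal, ofReal_measureReal]

lemma measurable_tr {A B : ℝ} (hA : 0 ≤ A) (hB : 0 ≤ B) (hAB : 0 < A + B) (s : ℝ) {δ : ℝ}
    (hδ : 0 ≤ δ) : Measurable (tr A B s δ) := by
  refine measurable_of_Iic fun y => ?_
  have : tr A B s δ ⁻¹' Iic y = {t | mixF A B s t ≤ mixF A B (s + δ) y} := by
    ext t; exact tr_le_iff hA hB hAB s hδ t y
  rw [this]
  exact measurableSet_le (continuous_mixF A B s).measurable measurable_const

lemma map_tr {A B : ℝ} (hA : 0 ≤ A) (hB : 0 ≤ B) (hAB : 0 < A + B) (s : ℝ) {δ : ℝ}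
    (hδ : 0 ≤ δ) : (mixM A B s).map (tr A B s δ) = mixM A B (s + δ) := by
  have hm := measurable_tr hA hB hAB s hδ
  have : IsFiniteMeasure (mixM A B (s + δ)) := ⟨by
    rw [mixM_apply hA hB _ MeasurableSet.univ]
    simp [ENNReal.add_lt_top]⟩
  symm
  refine Measure.ext_of_Iic _ _ fun y => ?_
  rw [Measure.map_apply hm measurableSet_Iic]
  have hb := mixF_between hA hB s hδ (y - δ)
  have hb' := mixF_between hA hB s hδ y
  rw [sub_add_cancel] at hb
  obtain ⟨t, -, ht⟩ := intermediate_value_Icc (show y - δ ≤ y by linarith)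
    (continuous_mixF A B s).continuousOn ⟨hb.2, hb'.1⟩
  have : tr A B s δ ⁻¹' Iic y = Iic t := by
    ext x
    rw [mem_preimage, mem_Iic, mem_Iic, tr_le_iff hA hB hAB s hδ, ← ht,
      (mixF_strictMono hA hB hAB s).le_iff_le]
  rw [this, mixM_Iic hA hB, mixM_Iic hA hB, ht]

end Vale.Agent.P143
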