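import Vale.Agent.P143.Cond
import Vale.Agent.P143.Laplace

open MeasureTheory Filter Topology

namespace Vale.Agent.P143

variable {V : Type*}

/-- Euler scheme for the localisation flow -/
noncomputable def euler (𝓔 : Set (Sym2 V)) (δ : ℝ) (ξ : Sym2 V → ℝ) : ℕ → Sym2 V → ℝ
  | 0 => ξ
  | k + 1 => fun e => euler 𝓔 δ ξ k e + δ * marg 𝓔 (fun f => lr (k * δ) (euler 𝓔 δ ξ k f)) e

lemma euler_succ (𝓔 : Set (Sym2 V)) (δ : ℝ) (ξ : Sym2 V → ℝ) (k : ℕ) (e : Sym2 V) :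
    euler 𝓔 δ ξ (k + 1) e =
      euler 𝓔 δ ξ k e + δ * marg 𝓔 (fun f => lr (k * δ) (euler 𝓔 δ ξ k f)) e := rfl

lemma drift_lip (𝓔 : Set (Sym2 V)) {s s' t : ℝ} {z z' : Sym2 V → ℝ} (h : ∀ f, |z f - z' f| ≤ t)
    (e : Sym2 V) :
    |marg 𝓔 (fun f => lr s (z f)) e - marg 𝓔 (fun f => lr s' (z' f)) e| ≤ 4 * t + 2 * |s - s'| := by
  have := marg_lipschitz (𝓔 := 𝓔) (h := fun f => lr s (z f)) (h' := fun f => lr s' (z' f))
    (t := 2 * t + |s - s'|) (fun f => (lr_lip _ _ _ _).trans (by linarith [h f])) e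
  linarith

lemma gronwall (𝓔 : Set (Sym2 V)) {δ η : ℝ} (hδ : 0 ≤ δ) (hη : 0 ≤ η) {w : ℕ → Sym2 V → ℝ}
    (hw : ∀ (k : ℕ) e,
      |w (k + 1) e - w k e - δ * marg 𝓔 (fun f => lr (k * δ) (w k f)) e| ≤ η) (k : ℕ) :
    ∀ e, |w k e - euler 𝓔 δ (w 0) k e| ≤ η * k * (1 + 4 * δ) ^ k := by
  induction k with
  | zero => intro e; simp [euler]
  | succ k ih =>
    intro e
    have h1 := hw k e
    have h2 := drift_lip 𝓔 (s := k * δ) (s' := k * δ) ih e
    have h3 := ih e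
    rw [sub_self, abs_zero, mul_zero, add_zero] at h2
    have h4 := mul_le_mul_of_nonneg_left h2 hδ
    rw [← abs_of_nonneg hδ, ← abs_mul, abs_of_nonneg hδ] at h4
    have h5 : (1 : ℝ) ≤ (1 + 4 * δ) ^ (k + 1) := one_le_pow₀ (by linarith)
    have h6 : η ≤ η * (1 + 4 * δ) ^ (k + 1) := le_mul_of_one_le_right hη h5
    have h7 : η * ((k + 1 : ℕ) : ℝ) * (1 + 4 * δ) ^ (k + 1) =
        η * k * (1 + 4 * δ) ^ k + δ * (4 * (η * k * (1 + 4 * δ) ^ k)) +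
          η * (1 + 4 * δ) ^ (k + 1) := by
      push_cast; ring
    rw [euler_succ, h7]
    rw [abs_le] at h1 h3 h4 ⊢
    constructor <;> linarith [h1.1, h1.2, h3.1, h3.2, h4.1, h4.2]

lemma euler_incr (𝓔 : Set (Sym2 V)) {δ : ℝ} (hδ : 0 ≤ δ) (ξ : Sym2 V → ℝ) (k i : ℕ) (e : Sym2 V) :
    0 ≤ euler 𝓔 δ ξ (k + i) e - euler 𝓔 δ ξ k e ∧
      euler 𝓔 δ ξ (k + i) e - euler 𝓔 δ ξ k e ≤ i * δ := by
  induction i with
  | zero => simp
  | succ i ih =>
    rw [← add_assoc, euler_succ]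
    have h1 := mul_nonneg hδ
      (marg_nonneg 𝓔 (fun f => lr ((k + i : ℕ) * δ) (euler 𝓔 δ ξ (k + i) f)) e)
    have h2 := mul_le_mul_of_nonneg_left
      (marg_le_one 𝓔 (fun f => lr ((k + i : ℕ) * δ) (euler 𝓔 δ ξ (k + i) f)) e) hδ
    push_cast at h1 h2 ⊢
    constructor <;> linarith [ih.1, ih.2]

lemma euler_fine (𝓔 : Set (Sym2 V)) {δ : ℝ} (hδ : 0 ≤ δ) (ξ : Sym2 V → ℝ) (k M i : ℕ)
    (hi : i ≤ M) (e : Sym2 V) :
    |euler 𝓔 δ ξ (k + i) e - euler 𝓔 δ ξ k e -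
      i * δ * marg 𝓔 (fun f => lr (k * δ) (euler 𝓔 δ ξ k f)) e| ≤ i * δ * (6 * (M * δ)) := by
  induction i with
  | zero => simp
  | succ i ih =>
    have ih := ih (by omega)
    have hiM : (i : ℝ) * δ ≤ M * δ := by
      gcongr
      omega
    have h1 := drift_lip 𝓔 (s := (k + i : ℕ) * δ) (s' := k * δ) (t := M * δ)
      (z := euler 𝓔 δ ξ (k + i)) (z' := euler 𝓔 δ ξ k) (fun f => by
        have := euler_incr 𝓔 hδ ξ k i f
        rw [abs_of_nonneg this.1]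
        linarith [this.2]) e
    have h2 : |((k + i : ℕ) : ℝ) * δ - k * δ| ≤ M * δ := by
      push_cast
      rw [show ((k : ℝ) + i) * δ - k * δ = i * δ by ring, abs_of_nonneg (by positivity)]
      exact hiM
    have h3 := mul_le_mul_of_nonneg_left (h1.trans (show _ ≤ 6 * (M * δ) by linarith)) hδ
    rw [← abs_of_nonneg hδ, ← abs_mul, abs_of_nonneg hδ] at h3
    rw [← add_assoc, euler_succ]
    rw [abs_le] at ih h3 ⊢
    push_cast at ih h3 ⊢
    constructor <;> linarith [ih.1, ih.2, h3.1, h3.2]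

/-- number of steps per unit time at level `j` -/
def nSteps (j : ℕ) : ℕ := 1024 ^ (j + 1)

lemma nSteps_pos (j : ℕ) : (0 : ℝ) < nSteps j := by unfold nSteps; positivity

lemma close (𝓔 : Set (Sym2 V)) (j : ℕ) {w : ℕ → Sym2 V → ℝ}
    (hw : ∀ (k : ℕ) e, |w (k + 1) e - w k e - (1 / nSteps j : ℝ) *
      marg 𝓔 (fun f => lr (k * (1 / nSteps j : ℝ)) (w k f)) e| ≤ 8 * (1 / nSteps j : ℝ) ^ 2)
    (e : Sym2 V) :
    |w (j * nSteps j) e - euler 𝓔 (1 / nSteps j) (w 0) (j * nSteps j) e| ≤ 1 := by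
  have hN := nSteps_pos j
  refine (gronwall 𝓔 (by positivity) (by positivity) hw (j * nSteps j) e).trans ?_
  have h1 : (1 + 4 * (1 / nSteps j : ℝ)) ^ (j * nSteps j) ≤ 81 ^ j := by
    calc (1 + 4 * (1 / nSteps j : ℝ)) ^ (j * nSteps j)
        ≤ (Real.exp (4 * (1 / nSteps j : ℝ))) ^ (j * nSteps j) := by
          gcongr
          linarith [Real.add_one_le_exp (4 * (1 / nSteps j : ℝ))]
      _ = (Real.exp 1 ^ 4) ^ j := by
          rw [← Real.exp_nat_mul, ← Real.exp_nat_mul, ← Real.exp_nat_mul]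
          congr 1
          push_cast
          field_simp
      _ ≤ (3 ^ 4) ^ j := by
          gcongr
          exact Real.exp_one_lt_three.le
      _ = 81 ^ j := by norm_num
  have h2 : (j : ℝ) ≤ 2 ^ j := by exact_mod_cast Nat.lt_two_pow_self.le
  have h3 : (8 : ℝ) * 2 ^ j * 81 ^ j ≤ nSteps j := by
    unfold nSteps
    push_cast
    rw [mul_assoc, ← mul_pow, pow_succ, mul_comm]
    gcongr <;> norm_num
  calc 8 * (1 / nSteps j : ℝ) ^ 2 * ((j * nSteps j : ℕ) : ℝ) *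
        (1 + 4 * (1 / nSteps j : ℝ)) ^ (j * nSteps j)
      = 8 * j * (1 + 4 * (1 / nSteps j : ℝ)) ^ (j * nSteps j) / nSteps j := by
        push_cast; field_simp
    _ ≤ 8 * 2 ^ j * 81 ^ j / nSteps j := by gcongr
    _ ≤ 1 := (div_le_one hN).2 h3

/-- the centred state at time `j` -/
noncomputable def yy (𝓔 : Set (Sym2 V)) (ξ : Sym2 V → ℝ) (j : ℕ) (e : Sym2 V) : ℝ :=
  euler 𝓔 (1 / nSteps j) ξ (j * nSteps j) e - j / 2

lemma yy_succ (𝓔 : Set (Sym2 V)) (ξ : Sym2 V → ℝ) (j : ℕ) (e : Sym2 V) :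
    |yy 𝓔 ξ (j + 1) e - yy 𝓔 ξ j e| ≤ 3 / 2 := by
  have hN := nSteps_pos j
  have hN' := nSteps_pos (j + 1)
  obtain ⟨M, hM, hs⟩ : ∃ M : ℕ, (0 : ℝ) < M ∧ nSteps (j + 1) = nSteps j * M :=
    ⟨1024, by norm_num, by unfold nSteps; ring⟩
  have hd : (M : ℝ) * (1 / nSteps (j + 1)) = 1 / nSteps j := by
    rw [hs]; push_cast; field_simp
  have h1 := close 𝓔 j (w := fun k => euler 𝓔 (1 / nSteps (j + 1)) ξ (k * M)) (fun k e => by
    have := euler_fine 𝓔 (δ := 1 / nSteps (j + 1)) (one_div_pos.2 hN').le ξ (k * M) M M le_rfl e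
    have e1 : ((k * M : ℕ) : ℝ) * (1 / nSteps (j + 1)) = k * (1 / nSteps j) := by
      rw [← hd]; push_cast; ring
    rw [e1, hd] at this
    rw [add_mul, one_mul]
    refine this.trans ?_
    nlinarith [sq_nonneg (1 / nSteps j : ℝ)]) e
  have h2 := euler_incr 𝓔 (δ := 1 / nSteps (j + 1)) (one_div_pos.2 hN').le ξ (j * nSteps j * M)
    (nSteps (j + 1)) e
  have e2 : j * nSteps j * M + nSteps (j + 1) = (j + 1) * nSteps (j + 1) := by rw [hs]; ring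
  rw [e2, mul_one_div_cancel hN'.ne'] at h2
  simp only [zero_mul] at h1
  change |_ - euler 𝓔 (1 / nSteps j) ξ (j * nSteps j) e| ≤ 1 at h1
  unfold yy
  rw [abs_le] at h1 ⊢
  push_cast
  constructor <;> linarith [h1.1, h1.2, h2.1, h2.2]

theorem tendsto_euler {𝓔 : Set (Sym2 V)} {𝓔n : ℕ → Set (Sym2 V)} (hsub : ∀ n, 𝓔n n ⊆ 𝓔)
    (hex : ∀ f ∈ 𝓔, ∀ᶠ n in atTop, f ∈ 𝓔n n) (hfin : ∀ h, ∀ e ∈ 𝓔, cond 𝓔 h e ≠ ⊤)
    (δ : ℝ) (ξ : Sym2 V → ℝ) (k : ℕ) :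
    ∀ e, Tendsto (fun n => euler (𝓔n n) δ ξ k e) atTop (𝓝 (euler 𝓔 δ ξ k e)) := by
  induction k with
  | zero => intro e; exact tendsto_const_nhds
  | succ k ih =>
    intro e
    simp only [euler_succ]
    refine (ih e).add (Tendsto.const_mul _ ?_)
    refine tendsto_marg hsub hex (M := 2 * |k * δ|) (fun f => ?_) (by positivity)
      (fun n f => ?_) e (hfin _ e)
    · have : Continuous (lr (k * δ)) := by unfold lr; fun_prop
      exact (this.tendsto _).comp (ih f)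
    · linarith [(abs_le.1 (abs_lr_le (k * δ) (euler (𝓔n n) δ ξ k f))).2,
        (abs_le.1 (abs_lr_le (k * δ) (euler 𝓔 δ ξ k f))).1]

lemma measurable_euler [Countable V] (δ : ℝ) (k : ℕ) :
    Measurable fun p : Set (Sym2 V) × (Sym2 V → ℝ) => euler p.1 δ p.2 k := by
  induction k with
  | zero => exact measurable_snd
  | succ k ih =>
    refine measurable_pi_iff.2 fun e => ?_
    simp only [euler_succ]
    refine (measurable_pi_iff.1 ih e).add (Measurable.const_mul ?_ _)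
    refine (measurable_marg e).comp (f := fun p : Set (Sym2 V) × (Sym2 V → ℝ) =>
      (p.1, fun f => lr (k * δ) (euler p.1 δ p.2 k f))) (measurable_fst.prodMk ?_)
    refine measurable_pi_iff.2 fun f => ?_
    exact measurable_lr.comp (measurable_const.prodMk (measurable_pi_iff.1 ih f))

lemma measurable_yy [Countable V] (j : ℕ) (e : Sym2 V) :
    Measurable fun p : Set (Sym2 V) × (Sym2 V → ℝ) => yy p.1 p.2 j e :=
  (measurable_pi_iff.1 (measurable_euler _ _) e).sub_const _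

open Classical in
/-- the limiting configuration -/
noncomputable def xx (𝓔 : Set (Sym2 V)) (ξ : Sym2 V → ℝ) (e : Sym2 V) : Bool :=
  decide (∀ᶠ j in atTop, 0 < yy 𝓔 ξ j e)

lemma measurable_xx [Countable V] (e : Sym2 V) :
    Measurable fun p : Set (Sym2 V) × (Sym2 V → ℝ) => xx p.1 p.2 e := by
  refine measurable_to_bool ?_
  have : (fun p : Set (Sym2 V) × (Sym2 V → ℝ) => xx p.1 p.2 e) ⁻¹' {true} =
      ⋃ n : ℕ, ⋂ j : ℕ, ⋂ _ : n ≤ j, {p | 0 < yy p.1 p.2 j e} := by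
    ext p
    simp [xx]
  rw [this]
  exact MeasurableSet.iUnion fun n => MeasurableSet.iInter fun j => MeasurableSet.iInter fun _ =>
    measurableSet_lt measurable_const (measurable_yy j e)

lemma xx_eq_of_large (𝓔 : Set (Sym2 V)) (ξ : Sym2 V → ℝ) (j : ℕ) (e : Sym2 V)
    (h : ∀ i, 2 < |yy 𝓔 ξ (i + j) e|) : xx 𝓔 ξ e = true ↔ 0 < yy 𝓔 ξ j e := by
  have key : ∀ i, 0 < yy 𝓔 ξ (i + j) e ↔ 0 < yy 𝓔 ξ j e := by
    intro i
    induction i with
    | zero => simp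
    | succ i ih =>
      rw [← ih]
      have h1 := h i
      have h2 := yy_succ 𝓔 ξ (i + j) e
      rw [show i + 1 + j = i + j + 1 by ring]
      rw [abs_le] at h2
      rcases lt_abs.1 h1 with h1 | h1
      · constructor <;> intro _ <;> linarith [h2.1, h2.2]
      · constructor <;> intro _ <;> linarith [h2.1, h2.2]
  simp only [xx, decide_eq_true_eq, eventually_atTop]
  constructor
  · rintro ⟨n, hn⟩
    exact (key n).1 (hn _ (by omega))
  · intro h0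
    refine ⟨j, fun i hi => ?_⟩
    have := (key (i - j)).2 h0
    rwa [Nat.sub_add_cancel hi] at this

variable {W : Type*}

lemma euler_map (σ : V ≃ W) {𝓔 : Set (Sym2 V)} {𝓔' : Set (Sym2 W)}
    (hE : ∀ f, f.map σ ∈ 𝓔' ↔ f ∈ 𝓔) (δ : ℝ) {ξ : Sym2 V → ℝ} {ξ' : Sym2 W → ℝ}
    (hξ : ∀ f, ξ' (f.map σ) = ξ f) (k : ℕ) :
    ∀ e, euler 𝓔' δ ξ' k (e.map σ) = euler 𝓔 δ ξ k e := by
  induction k with
  | zero => exact hξ
  | succ k ih =>
    intro e
    simp only [euler_succ, marg_map σ hE, ih]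

lemma xx_map (σ : V ≃ W) {𝓔 : Set (Sym2 V)} {𝓔' : Set (Sym2 W)}
    (hE : ∀ f, f.map σ ∈ 𝓔' ↔ f ∈ 𝓔) {ξ : Sym2 V → ℝ} {ξ' : Sym2 W → ℝ}
    (hξ : ∀ f, ξ' (f.map σ) = ξ f) (e : Sym2 V) : xx 𝓔' ξ' (e.map σ) = xx 𝓔 ξ e := by
  have : ∀ j, yy 𝓔' ξ' j (e.map σ) = yy 𝓔 ξ j e := fun j => by
    simp only [yy, euler_map σ hE _ hξ]
  unfold xx
  rw [decide_eq_decide]
  simp only [this]

end Vale.Agent.P143
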