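import Vale.Agent.P143.Limit
import Vale.Agent.P143.Defs

open MeasureTheory ProbabilityTheory Filter Topology Set SimpleGraph
open scoped ENNReal

namespace Vale.Agent.P143

variable {V : Type*}

lemma lift_reach {K : SimpleGraph V} {W : Set V} {K' : SimpleGraph W}
    (h : ∀ x y, K.Adj x y → ∃ hx hy, K'.Adj ⟨x, hx⟩ ⟨y, hy⟩) {u x : V} (hu : u ∈ W)
    (hr : K.Reachable u x) : ∃ hx, K'.Reachable ⟨u, hu⟩ ⟨x, hx⟩ := by
  rw [reachable_iff_reflTransGen] at hr
  induction hr with
  | refl => exact ⟨hu, Reachable.refl _⟩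
  | tail _ hpq ih =>
    obtain ⟨hp, ih⟩ := ih
    obtain ⟨_, hq, hadj⟩ := h _ _ hpq
    exact ⟨hq, ih.trans hadj.reachable⟩

variable {G : SimpleGraph V}

lemma acyclic_spanningCoe {T : G.Subgraph} (h : T.coe.IsAcyclic) : T.spanningCoe.IsAcyclic := by
  rw [isAcyclic_iff_forall_adj_isBridge] at h ⊢
  intro u v huv
  have huv' : T.Adj u v := huv
  have h1 := h huv'.coe
  rw [isBridge_iff] at h1 ⊢
  intro hr
  obtain ⟨_, h2⟩ := lift_reach (W := T.verts)
    (K' := T.coe.deleteEdges {s(⟨u, T.edge_vert huv'⟩, ⟨v, T.edge_vert huv'.symm⟩)})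
    (fun x y hxy => by
      rw [deleteEdges_adj] at hxy
      have h3 : T.Adj x y := hxy.1
      refine ⟨T.edge_vert h3, T.edge_vert h3.symm, ?_⟩
      rw [deleteEdges_adj]
      refine ⟨h3.coe, fun hc => hxy.2 ?_⟩
      have := congrArg (Sym2.map Subtype.val) (mem_singleton_iff.1 hc)
      simpa using this) (T.edge_vert huv') hr
  exact h1 h2

lemma connected_of_spanningCoe {T : G.Subgraph} (hne : T.verts.Nonempty)
    (h : ∀ u ∈ T.verts, ∀ v ∈ T.verts, T.spanningCoe.Reachable u v) : T.coe.Connected := by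
  have : Nonempty T.verts := hne.to_subtype
  refine ⟨fun u v => ?_⟩
  obtain ⟨_, h2⟩ := lift_reach (W := T.verts) (K' := T.coe) (fun x y hxy => by
    have h3 : T.Adj x y := hxy
    exact ⟨T.edge_vert h3, T.edge_vert h3.symm, h3.coe⟩) u.2 (h u u.2 v v.2)
  exact h2

lemma finite_edgeSet {H : G.Subgraph} (h : H.verts.Finite) : H.edgeSet.Finite := by
  refine ((h.prod h).image fun p => s(p.1, p.2)).subset fun e he => ?_
  induction e using Sym2.ind with
  | _ x y =>
  have : H.Adj x y := he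
  exact ⟨(x, y), ⟨H.edge_vert this, H.edge_vert this.symm⟩, rfl⟩

lemma gr_toFinset {T : G.Subgraph} (h : T.edgeSet.Finite) : gr h.toFinset = T.spanningCoe := by
  ext x y
  rw [gr_adj]
  simp only [Finite.mem_toFinset, Subgraph.mem_edgeSet, Subgraph.spanningCoe_adj]
  exact ⟨fun h => h.1, fun h => ⟨h, h.ne⟩⟩

lemma toFinset_mem_trees {H T : G.Subgraph} (hH : H.edgeSet.Finite) (hT : T.edgeSet.Finite)
    (hle : T ≤ H) (hv : T.verts = H.verts) (ht : T.coe.IsTree) :
    hT.toFinset ∈ trees H.verts hH.toFinset := by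
  refine mem_trees.2 ⟨Finite.toFinset_subset_toFinset.2 (Subgraph.edgeSet_mono hle), ?_, ?_⟩
  · rw [gr_toFinset]
    exact acyclic_spanningCoe ht.isAcyclic
  · intro u hu v hv'
    rw [gr_toFinset]
    exact (ht.connected.preconnected ⟨u, hv ▸ hu⟩ ⟨v, hv ▸ hv'⟩).map
      T.coeEmbeddingSpanningCoe.toHom

lemma net_of_subgraph {H : G.Subgraph} (hH : H.edgeSet.Finite) (hc : H.Connected) :
    Net H.verts hH.toFinset := by
  refine ⟨fun f hf x hx => Subgraph.mem_verts_of_mem_edge (hH.mem_toFinset.1 hf) hx,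
    fun f hf => G.not_isDiag_of_mem_edgeSet (H.edgeSet_subset (hH.mem_toFinset.1 hf)), ?_⟩
  obtain ⟨T', hle, hT'⟩ := hc.coe.exists_isTree_le
  let T : G.Subgraph :=
    { verts := H.verts
      Adj := fun x y => ∃ hx hy, T'.Adj ⟨x, hx⟩ ⟨y, hy⟩
      adj_sub := fun ⟨_, _, h⟩ => H.adj_sub (hle h)
      edge_vert := fun ⟨hx, _, _⟩ => hx
      symm := ⟨fun _ _ ⟨hx, hy, h⟩ => ⟨hy, hx, h.symm⟩⟩ }
  have hTH : T ≤ H := ⟨subset_rfl, fun _ _ ⟨_, _, h⟩ => hle h⟩
  have hcoe : T.coe = T' := by
    ext x y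
    exact ⟨fun ⟨_, _, h⟩ => h, fun h => ⟨x.2, y.2, h⟩⟩
  exact ⟨_, toFinset_mem_trees hH (hH.subset (Subgraph.edgeSet_mono hTH)) hTH rfl (hcoe ▸ hT')⟩

/-- restriction of a configuration to the edges of `G` -/
def res (G : SimpleGraph V) {α : Type*} (ω : Sym2 V → α) : G.edgeSet → α := fun e => ω e

open Classical in
lemma configs_eq {H : G.Subgraph} (hH : H.edgeSet.Finite) (hc : H.Connected) :
    spanningTreeConfigs H =
      (((trees H.verts hH.toFinset).image fun T => res G (ind T) : Finset _) : Set _) := by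
  ext ω
  simp only [Finset.coe_image, mem_image, Finset.mem_coe]
  constructor
  · rintro ⟨T, hle, hv, ht, hω⟩
    have hT := hH.subset (Subgraph.edgeSet_mono hle)
    refine ⟨_, toFinset_mem_trees hH hT hle hv ht, ?_⟩
    ext e
    rw [Bool.eq_iff_iff, hω]
    simp [res, ind]
  · rintro ⟨T0, hT0, rfl⟩
    obtain ⟨hE, hac, hre⟩ := mem_trees.1 hT0
    have hadj : ∀ x y, (gr T0).Adj x y → H.Adj x y := fun x y h =>
      hH.mem_toFinset.1 (hE (gr_adj.1 h).1)
    let T : G.Subgraph :=
      { verts := H.verts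
        Adj := (gr T0).Adj
        adj_sub := fun h => H.adj_sub (hadj _ _ h)
        edge_vert := fun h => H.edge_vert (hadj _ _ h)
        symm := (gr T0).symm }
    have hs : T.spanningCoe = gr T0 := rfl
    refine ⟨T, ⟨subset_rfl, hadj⟩, rfl, ⟨connected_of_spanningCoe hc.nonempty hre,
      IsAcyclic.embedding T.coeEmbeddingSpanningCoe hac⟩, ?_⟩
    rintro ⟨e, he⟩
    induction e using Sym2.ind with
    | _ x y =>
    have : x ≠ y := ((mem_edgeSet G).1 he).ne
    simp only [res, ind, decide_eq_true_eq, Subgraph.mem_edgeSet]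
    exact ⟨fun h => gr_adj.2 ⟨h, this⟩, fun h => (gr_adj.1 h).1⟩

lemma ust_apply [Countable V] {H : G.Subgraph} (hH : H.edgeSet.Finite) (hc : H.Connected)
    (B : Set (G.edgeSet → Bool)) : ust H B = un (trees H.verts hH.toFinset) (res G ⁻¹' B) := by
  classical
  have hinj : InjOn (fun T => res G (ind T)) (trees H.verts hH.toFinset : Set _) := by
    intro T hT T' hT' h
    ext e
    by_cases he : e ∈ G.edgeSet
    · have := congrFun h ⟨e, he⟩
      simpa [res, ind] using this
    · have h1 : e ∉ T := fun hc => he (H.edgeSet_subset (hH.mem_toFinset.1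
        ((mem_trees.1 hT).1 hc)))
      have h2 : e ∉ T' := fun hc => he (H.edgeSet_subset (hH.mem_toFinset.1
        ((mem_trees.1 hT').1 hc)))
      simp [h1, h2]
  have h1 : spanningTreeConfigs H ∩ B = ((((trees H.verts hH.toFinset).filter
      fun T => ind T ∈ res G ⁻¹' B).image fun T => res G (ind T) : Finset _) : Set _) := by
    rw [configs_eq hH hc]
    ext ω
    simp only [Finset.coe_image, mem_inter_iff, mem_image, Finset.mem_coe, Finset.mem_filter,
      mem_preimage]
    constructor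
    · rintro ⟨⟨T, hT, rfl⟩, hB⟩
      exact ⟨T, ⟨hT, hB⟩, rfl⟩
    · rintro ⟨T, ⟨hT, hB⟩, rfl⟩
      exact ⟨⟨T, hT, rfl⟩, hB⟩
  have hm : MeasurableSet (spanningTreeConfigs H) := by
    rw [configs_eq hH hc]
    exact Finset.measurableSet _
  rw [ust, uniformOn, cond_apply hm, h1, configs_eq hH hc, Measure.count_apply_finset,
    Measure.count_apply_finset, Finset.card_image_of_injOn hinj,
    Finset.card_image_of_injOn (hinj.mono (Finset.coe_subset.2 (Finset.filter_subset _ _))), un, ENNReal.div_eq_inv_mul]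

lemma isProb_ust [Countable V] {H : G.Subgraph} (hH : H.edgeSet.Finite) (hc : H.Connected) :
    IsProbabilityMeasure (ust H) := by
  constructor
  rw [ust_apply hH hc]
  have := un_add_compl (net_of_subgraph hH hc).ne (univ : Set (Sym2 V → Bool))
  simpa [un] using this

/-- balls around `o` -/
def ball (G : SimpleGraph V) (o : V) : ℕ → Set V
  | 0 => {o}
  | n + 1 => ball G o n ∪ ⋃ u ∈ ball G o n, G.neighborSet u

lemma ball_finite (hG : ∀ v, (G.neighborSet v).Finite) (o : V) (n : ℕ) : (ball G o n).Finite := by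
  induction n with
  | zero => exact finite_singleton o
  | succ n ih => exact ih.union (ih.biUnion fun u _ => hG u)

lemma ball_mono (o : V) : Monotone (ball G o) :=
  monotone_nat_of_le_succ fun _ => subset_union_left

lemma mem_ball_succ {o u v : V} {n : ℕ} (hu : u ∈ ball G o n) (h : G.Adj u v) :
    v ∈ ball G o (n + 1) :=
  Or.inr (mem_biUnion hu h)

lemma exists_mem_ball {o v : V} (h : G.Reachable o v) : ∃ n, v ∈ ball G o n := by
  rw [reachable_iff_reflTransGen] at h
  induction h with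
  | refl => exact ⟨0, rfl⟩
  | tail _ hpq ih =>
    obtain ⟨n, hn⟩ := ih
    exact ⟨n + 1, mem_ball_succ hn hpq⟩

lemma countable_of_connected (hG : ∀ v, (G.neighborSet v).Finite) (hc : G.Connected) :
    Countable V := by
  obtain ⟨o⟩ := hc.nonempty
  rw [← countable_univ_iff]
  refine (countable_iUnion fun n => (ball_finite hG o n).countable).mono fun v _ => ?_
  exact mem_iUnion.2 (exists_mem_ball (hc.preconnected o v))

lemma exists_exhaustion (hG : ∀ v, (G.neighborSet v).Finite) (hc : G.Connected) :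
    ∃ H : ℕ → G.Subgraph, IsExhaustion H := by
  obtain ⟨o⟩ := hc.nonempty
  have hmono : Monotone fun n => (⊤ : G.Subgraph).induce (ball G o n) :=
    fun n m h => Subgraph.induce_mono_right (ball_mono o h)
  have hr : ∀ n, ∀ v ∈ ball G o n,
      ((⊤ : G.Subgraph).induce (ball G o n)).spanningCoe.Reachable o v := by
    intro n
    induction n with
    | zero => rintro v rfl; exact Reachable.refl _
    | succ n ih =>
      have hle := Subgraph.spanningCoe_le_of_le (hmono (Nat.le_succ n))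
      rintro v (hv | hv)
      · exact (ih v hv).mono hle
      · obtain ⟨u, hu, huv⟩ := mem_iUnion₂.1 hv
        refine ((ih u hu).mono hle).trans (Adj.reachable ?_)
        exact ⟨ball_mono o (Nat.le_succ n) hu, mem_ball_succ hu huv, huv⟩
  refine ⟨fun n => (⊤ : G.Subgraph).induce (ball G o n), fun n => ⟨ball_finite hG o n, ⟨?_⟩⟩,
    hmono, ?_⟩
  · exact connected_of_spanningCoe ⟨o, ball_mono o (Nat.zero_le n) rfl⟩
      fun u hu v hv => (hr n u hu).symm.trans (hr n v hv)
  · refine Subgraph.ext ?_ ?_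
    · rw [Subgraph.verts_iSup]
      exact eq_univ_of_forall fun v => mem_iUnion.2 (exists_mem_ball (hc.preconnected o v))
    · ext u v
      rw [Subgraph.iSup_adj]
      constructor
      · rintro ⟨n, hn⟩
        exact hn.2.2
      · intro h
        obtain ⟨n, hn⟩ := exists_mem_ball (hc.preconnected o u)
        exact ⟨n + 1, ball_mono o (Nat.le_succ n) hn, mem_ball_succ hn h, h⟩

lemma measurable_res (G : SimpleGraph V) {α : Type*} [MeasurableSpace α] :
    Measurable (res G : (Sym2 V → α) → G.edgeSet → α) :=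
  measurable_pi_iff.2 fun e => measurable_pi_apply (e : Sym2 V)

theorem isFUSF_noise [Countable V] (hG : ∀ v, (G.neighborSet v).Finite) (hc : G.Connected) :
    IsFUSF G ((noise (Sym2 V)).map fun ξ => res G (xx G.edgeSet ξ)) := by
  classical
  have hm : Measurable fun ξ => res G (xx G.edgeSet ξ) :=
    (measurable_res G).comp (measurable_xx' _)
  have hp : IsProbabilityMeasure ((noise (Sym2 V)).map fun ξ => res G (xx G.edgeSet ξ)) :=
    Measure.isProbabilityMeasure_map hm.aemeasurable
  refine ⟨hp, exists_exhaustion hG hc, fun H hH => ?_⟩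
  have hfin : ∀ n, (H n).edgeSet.Finite := fun n => finite_edgeSet (hH.1 n).1
  let μn : ℕ → ProbabilityMeasure (G.edgeSet → Bool) := fun n =>
    ⟨ust (H n), isProb_ust (hfin n) (hH.1 n).2⟩
  let μ : ProbabilityMeasure (G.edgeSet → Bool) := ⟨_, hp⟩
  suffices h : Tendsto μn atTop (𝓝 μ) from
    ProbabilityMeasure.tendsto_iff_forall_integral_tendsto.1 h
  let 𝒮 : Set (Set (G.edgeSet → Bool)) := {B | MeasurableSet B ∧ ∃ S : Finset G.edgeSet,
    ∀ ω ω' : G.edgeSet → Bool, (∀ e ∈ S, ω e = ω' e) → ω ∈ B → ω' ∈ B}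
  have hpi : IsPiSystem 𝒮 := by
    rintro B ⟨mB, S, hS⟩ B' ⟨mB', S', hS'⟩ -
    refine ⟨mB.inter mB', S ∪ S', fun ω ω' h hω => ⟨?_, ?_⟩⟩
    · exact hS ω ω' (fun e he => h e (Finset.mem_union_left _ he)) hω.1
    · exact hS' ω ω' (fun e he => h e (Finset.mem_union_right _ he)) hω.2
  refine hpi.tendsto_probabilityMeasure_of_tendsto_of_mem (fun B hB => hB.1) ?_ ?_
  · intro u hu x hx
    obtain ⟨I, t, h1, h2⟩ := isOpen_pi_iff.1 hu x hx
    refine ⟨(I : Set _).pi t, ⟨MeasurableSet.pi I.countable_toSet fun _ _ => by trivial, I,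
      fun ω ω' h hω e he => h e he ▸ hω e he⟩, ?_, h2⟩
    exact set_pi_mem_nhds I.finite_toSet fun a ha => (h1 a ha).1.mem_nhds (h1 a ha).2
  · rintro B ⟨mB, S, hS⟩
    have hex : ∀ f ∈ G.edgeSet, ∀ᶠ n in atTop, f ∈ ((hfin n).toFinset : Set (Sym2 V)) := by
      intro f hf
      have h1 : f ∈ (⨆ n, H n).edgeSet := by rw [hH.2.2]; exact hf
      rw [Subgraph.edgeSet_iSup] at h1
      obtain ⟨n, hn⟩ := mem_iUnion.1 h1
      filter_upwards [eventually_ge_atTop n] with m hm
      simpa using Subgraph.edgeSet_mono (hH.2.1 hm) hn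
    have key := tendsto_un (fun n => net_of_subgraph (hfin n) (hH.1 n).2)
      (𝓔 := G.edgeSet) (fun n => by simpa using (H n).edgeSet_subset) hex
      (fun h e he => cond_ne_top hG h he) (S := S.image Subtype.val) (A := res G ⁻¹' B)
      (fun ω ω' h hω => hS _ _ (fun e he => h e (Finset.mem_image_of_mem _ he)) hω)
      (measurable_res G mB)
    rw [← ENNReal.tendsto_coe]
    simp only [ProbabilityMeasure.ennreal_coeFn_eq_coeFn_toMeasure]
    convert key using 2 with n
    · exact ust_apply (hfin _) (hH.1 _).2 B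
    · exact Measure.map_apply hm mB

end Vale.Agent.P143
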