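import Vale.Agent.P143.Cond

open SimpleGraph
open scoped ENNReal

namespace Vale.Agent.P143

variable {V : Type*}

/-- graph of a finite edge set -/
def gr (T : Finset (Sym2 V)) : SimpleGraph V := fromEdgeSet (T : Set (Sym2 V))

lemma gr_adj {T : Finset (Sym2 V)} {x y : V} : (gr T).Adj x y ↔ s(x, y) ∈ T ∧ x ≠ y := by
  simp [gr, fromEdgeSet_adj]

lemma gr_mono {T T' : Finset (Sym2 V)} (h : T ⊆ T') : gr T ≤ gr T' :=
  fromEdgeSet_mono (Finset.coe_subset.2 h)

/-- spanning tree of the vertex set `W` -/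
def IsST (W : Set V) (T : Finset (Sym2 V)) : Prop :=
  (gr T).IsAcyclic ∧ ∀ u ∈ W, ∀ v ∈ W, (gr T).Reachable u v

/-- spanning two-component forest separating `a` from `b` -/
def IsSF (W : Set V) (a b : V) (F : Finset (Sym2 V)) : Prop :=
  (gr F).IsAcyclic ∧ ¬ (gr F).Reachable a b ∧
    ∀ u ∈ W, (gr F).Reachable a u ∨ (gr F).Reachable b u

open Classical in
/-- the spanning trees of the network `(W, E)` -/
noncomputable def trees (W : Set V) (E : Finset (Sym2 V)) : Finset (Finset (Sym2 V)) :=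
  E.powerset.filter (IsST W)

open Classical in
/-- the separating forests of the network `(W, E)` -/
noncomputable def forests (W : Set V) (E : Finset (Sym2 V)) (a b : V) :
    Finset (Finset (Sym2 V)) :=
  E.powerset.filter (IsSF W a b)

lemma mem_trees {W : Set V} {E T : Finset (Sym2 V)} : T ∈ trees W E ↔ T ⊆ E ∧ IsST W T := by
  simp [trees]

lemma mem_forests {W : Set V} {E F : Finset (Sym2 V)} {a b : V} :
    F ∈ forests W E a b ↔ F ⊆ E ∧ IsSF W a b F := by
  simp [forests]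

/-- weight of an edge set -/
noncomputable def wt (h : Sym2 V → ℝ) (T : Finset (Sym2 V)) : ℝ := Real.exp (∑ f ∈ T, h f)

lemma wt_pos (h : Sym2 V → ℝ) (T : Finset (Sym2 V)) : 0 < wt h T := Real.exp_pos _

open Classical in
/-- indicator of the component of `a` -/
noncomputable def chi (a : V) (F : Finset (Sym2 V)) (u : V) : ℝ :=
  if (gr F).Reachable a u then 1 else 0

variable [DecidableEq V]

lemma wt_insert (h : Sym2 V → ℝ) {F : Finset (Sym2 V)} {f : Sym2 V} (hf : f ∉ F) :
    wt h (insert f F) = wt h F * Real.exp (h f) := by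
  rw [wt, Finset.sum_insert hf, Real.exp_add, wt, mul_comm]

lemma gr_insert (F : Finset (Sym2 V)) (x y : V) : gr (insert s(x, y) F) = gr F ⊔ edge x y := by
  rw [gr, Finset.coe_insert, Set.insert_eq, fromEdgeSet_union, sup_comm]
  rfl

lemma reach_erase {T : Finset (Sym2 V)} {x y u : V} (h : (gr T).Reachable x u) :
    (gr (T.erase s(x, y))).Reachable x u ∨ (gr (T.erase s(x, y))).Reachable y u := by
  rw [reachable_iff_reflTransGen] at h
  induction h with
  | refl => exact Or.inl (Reachable.refl _)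
  | @tail p q _ hpq ih =>
    by_cases hf : s(p, q) = s(x, y)
    · rcases Sym2.eq_iff.1 hf with ⟨rfl, rfl⟩ | ⟨rfl, rfl⟩
      · exact Or.inr (Reachable.refl _)
      · exact Or.inl (Reachable.refl _)
    · have : (gr (T.erase s(x, y))).Adj p q := by
        rw [gr_adj] at hpq ⊢
        exact ⟨Finset.mem_erase.2 ⟨hf, hpq.1⟩, hpq.2⟩
      exact ih.imp (fun h => h.trans this.reachable) (fun h => h.trans this.reachable)

lemma not_reach_erase {T : Finset (Sym2 V)} (hT : (gr T).IsAcyclic) {x y : V}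
    (hxy : (gr T).Adj x y) : ¬ (gr (T.erase s(x, y))).Reachable x y := by
  have h1 := isAcyclic_iff_forall_isBridge.1 hT ((mem_edgeSet _).2 hxy)
  rw [isBridge_iff] at h1
  refine fun hc => h1 (hc.mono ?_)
  intro p q hpq
  rw [gr_adj, Finset.mem_erase] at hpq
  rw [deleteEdges_adj, gr_adj]
  exact ⟨⟨hpq.1.2, hpq.2⟩, by simpa using hpq.1.1⟩

lemma isST_insert {W : Set V} {a b x y : V} {F : Finset (Sym2 V)} (hF : IsSF W a b F)
    (hy : y ∈ W) (h1 : (gr F).Reachable a x) (h2 : ¬ (gr F).Reachable a y) :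
    s(x, y) ∉ F ∧ IsST W (insert s(x, y) F) := by
  have hxy : x ≠ y := fun h => h2 (h ▸ h1)
  have hn : ¬ (gr F).Reachable x y := fun h => h2 (h1.trans h)
  refine ⟨fun h => hn (Adj.reachable (gr_adj.2 ⟨h, hxy⟩)), ?_, ?_⟩
  · rw [gr_insert]
    exact hF.1.sup_edge_of_not_reachable hn
  · have hle : gr F ≤ gr (insert s(x, y) F) := gr_mono (Finset.subset_insert _ _)
    have hadj : (gr (insert s(x, y) F)).Adj x y := gr_adj.2 ⟨Finset.mem_insert_self _ _, hxy⟩
    have hby : (gr F).Reachable b y := (hF.2.2 y hy).resolve_left h2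
    have key : ∀ u ∈ W, (gr (insert s(x, y) F)).Reachable a u := by
      intro u hu
      rcases hF.2.2 u hu with h | h
      · exact h.mono hle
      · exact ((h1.mono hle).trans hadj.reachable).trans
          ((hby.mono hle).symm.trans (h.mono hle))
    intro u hu v hv
    exact (key u hu).symm.trans (key v hv)

lemma isSF_erase {W : Set V} {a b : V} (ha : a ∈ W) (hb : b ∈ W) {T : Finset (Sym2 V)}
    (hT : IsST W T) {f : Sym2 V} (hfW : ∀ x ∈ f, x ∈ W)
    (hn : ¬ (gr (T.erase f)).Reachable a b) : IsSF W a b (T.erase f) := by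
  induction f using Sym2.ind with
  | _ x y =>
  have hx : x ∈ W := hfW x (Sym2.mem_mk_left x y)
  refine ⟨hT.1.anti (gr_mono (Finset.erase_subset _ _)), hn, fun u hu => ?_⟩
  have h1 := reach_erase (y := y) (hT.2 x hx a ha)
  have h2 := reach_erase (y := y) (hT.2 x hx b hb)
  have h3 := reach_erase (y := y) (hT.2 x hx u hu)
  rcases h1 with h1 | h1 <;> rcases h2 with h2 | h2 <;> rcases h3 with h3 | h3
  · exact (hn (h1.symm.trans h2)).elim
  · exact (hn (h1.symm.trans h2)).elim
  · exact Or.inl (h1.symm.trans h3)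
  · exact Or.inr (h2.symm.trans h3)
  · exact Or.inr (h2.symm.trans h3)
  · exact Or.inl (h1.symm.trans h3)
  · exact (hn (h1.symm.trans h2)).elim
  · exact (hn (h1.symm.trans h2)).elim

open Classical in
lemma tree_sum {T : Finset (Sym2 V)} (hT : (gr T).IsAcyclic) (φ : V → ℝ) {a b : V}
    (hab : (gr T).Reachable a b) :
    ∑ f ∈ T, (if (gr (T.erase f)).Reachable a b then 0 else dd (chi a (T.erase f)) φ f) =
      φ a - φ b := by
  rw [reachable_iff_reflTransGen] at hab
  induction hab with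
  | refl => simp
  | @tail p q hap hpq ih =>
    have hf0 : s(p, q) ∈ T := (gr_adj.1 hpq).1
    rw [← Finset.add_sum_erase T _ hf0] at ih ⊢
    have hrest : ∑ f ∈ T.erase s(p, q),
        (if (gr (T.erase f)).Reachable a q then 0 else dd (chi a (T.erase f)) φ f) =
        ∑ f ∈ T.erase s(p, q),
        (if (gr (T.erase f)).Reachable a p then 0 else dd (chi a (T.erase f)) φ f) := by
      refine Finset.sum_congr rfl fun f hf => ?_
      have hadj : (gr (T.erase f)).Adj p q :=
        gr_adj.2 ⟨Finset.mem_erase.2 ⟨(Finset.mem_erase.1 hf).1.symm, hf0⟩, hpq.ne⟩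
      have : (gr (T.erase f)).Reachable a q ↔ (gr (T.erase f)).Reachable a p :=
        ⟨fun h => h.trans hadj.reachable.symm, fun h => h.trans hadj.reachable⟩
      simp only [this]
    rw [hrest]
    have hn := not_reach_erase hT hpq
    have hap' : (gr T).Reachable p a := ((reachable_iff_reflTransGen _ _).2 hap).symm
    rcases reach_erase (y := q) hap' with h | h
    · have h1 : (gr (T.erase s(p, q))).Reachable a p := h.symm
      have h2 : ¬ (gr (T.erase s(p, q))).Reachable a q := fun hc => hn (h.trans hc)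
      simp only [h1, h2, if_true, if_false, dd_mk, chi] at ih ⊢
      linarith
    · have h1 : (gr (T.erase s(p, q))).Reachable a q := h.symm
      have h2 : ¬ (gr (T.erase s(p, q))).Reachable a p := fun hc => hn (h.trans hc).symm
      simp only [h1, h2, if_true, if_false, dd_mk, chi] at ih ⊢
      linarith

lemma cross_of_dd_ne {W : Set V} {a b : V} {F : Finset (Sym2 V)} (hF : IsSF W a b F)
    {f : Sym2 V} (hfW : ∀ x ∈ f, x ∈ W) {φ : V → ℝ} (h : dd (chi a F) φ f ≠ 0) :
    f ∉ F ∧ IsST W (insert f F) := by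
  induction f using Sym2.ind with
  | _ x y =>
  by_cases hx : (gr F).Reachable a x <;> by_cases hy : (gr F).Reachable a y
  · simp [chi, hx, hy] at h
  · exact isST_insert hF (hfW y (Sym2.mem_mk_right x y)) hx hy
  · rw [Sym2.eq_swap]
    exact isST_insert hF (hfW x (Sym2.mem_mk_left x y)) hy hx
  · simp [chi, hx, hy] at h

theorem kirchhoff_sum {W : Set V} {E : Finset (Sym2 V)} (hE : ∀ f ∈ E, ∀ x ∈ f, x ∈ W) {a b : V}
    (ha : a ∈ W) (hb : b ∈ W) (h : Sym2 V → ℝ) (φ : V → ℝ) :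
    ∑ F ∈ forests W E a b, ∑ f ∈ E, wt h F * (Real.exp (h f) * dd (chi a F) φ f) =
      (∑ T ∈ trees W E, wt h T) * (φ a - φ b) := by
  classical
  have hR : (∑ T ∈ trees W E, wt h T) * (φ a - φ b) =
      ∑ p ∈ (trees W E ×ˢ E).filter
        (fun p => p.2 ∈ p.1 ∧ ¬ (gr (p.1.erase p.2)).Reachable a b),
        wt h p.1 * dd (chi a (p.1.erase p.2)) φ p.2 := by
    rw [Finset.sum_filter, Finset.sum_product, Finset.sum_mul]
    refine Finset.sum_congr rfl fun T hT => ?_
    obtain ⟨hTE, hT⟩ := mem_trees.1 hT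
    rw [← tree_sum hT.1 φ (hT.2 a ha b hb), Finset.mul_sum]
    rw [← Finset.sum_subset hTE (fun f _ hf => by simp [hf])]
    refine Finset.sum_congr rfl fun f hf => ?_
    by_cases hr : (gr (T.erase f)).Reachable a b <;> simp [hf, hr]
  have hL : ∑ F ∈ forests W E a b, ∑ f ∈ E, wt h F * (Real.exp (h f) * dd (chi a F) φ f) =
      ∑ p ∈ (forests W E a b ×ˢ E).filter (fun p => p.2 ∉ p.1 ∧ IsST W (insert p.2 p.1)),
        wt h p.1 * (Real.exp (h p.2) * dd (chi a p.1) φ p.2) := by
    rw [Finset.sum_filter, Finset.sum_product]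
    refine Finset.sum_congr rfl fun F hF => Finset.sum_congr rfl fun f hf => ?_
    by_cases hd : dd (chi a F) φ f = 0
    · simp [hd]
    · rw [if_pos (cross_of_dd_ne (mem_forests.1 hF).2 (hE f hf) hd)]
  rw [hL, hR]
  refine Finset.sum_nbij' (fun p => (insert p.2 p.1, p.2)) (fun p => (p.1.erase p.2, p.2))
    ?_ ?_ ?_ ?_ ?_
  · rintro ⟨F, f⟩ hp
    simp only [Finset.mem_filter, Finset.mem_product] at hp ⊢
    obtain ⟨⟨hF, hf⟩, hfF, hT⟩ := hp
    obtain ⟨hFE, hF⟩ := mem_forests.1 hF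
    refine ⟨⟨mem_trees.2 ⟨Finset.insert_subset hf hFE, hT⟩, hf⟩, Finset.mem_insert_self _ _, ?_⟩
    rw [Finset.erase_insert hfF]
    exact hF.2.1
  · rintro ⟨T, f⟩ hp
    simp only [Finset.mem_filter, Finset.mem_product] at hp ⊢
    obtain ⟨⟨hT, hf⟩, hfT, hn⟩ := hp
    obtain ⟨hTE, hT⟩ := mem_trees.1 hT
    refine ⟨⟨mem_forests.2 ⟨(Finset.erase_subset _ _).trans hTE,
      isSF_erase ha hb hT (hE f hf) hn⟩, hf⟩, Finset.notMem_erase _ _, ?_⟩
    rw [Finset.insert_erase hfT]
    exact hT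
  · rintro ⟨F, f⟩ hp
    simp only [Finset.mem_filter, Finset.mem_product] at hp
    simp [Finset.erase_insert hp.2.1]
  · rintro ⟨T, f⟩ hp
    simp only [Finset.mem_filter, Finset.mem_product] at hp
    simp [Finset.insert_erase hp.2.1]
  · rintro ⟨F, f⟩ hp
    simp only [Finset.mem_filter, Finset.mem_product] at hp
    simp only [Finset.erase_insert hp.2.1, wt_insert h hp.2.1]
    ring

theorem kirchhoff_edge {W : Set V} {E : Finset (Sym2 V)} (hE : ∀ f ∈ E, ∀ x ∈ f, x ∈ W) {a b : V}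
    (hab : a ≠ b) (he : s(a, b) ∈ E) (h : Sym2 V → ℝ) :
    ∑ T ∈ (trees W E).filter (fun T => s(a, b) ∈ T), wt h T =
      (∑ F ∈ forests W E a b, wt h F) * Real.exp (h s(a, b)) := by
  have ha : a ∈ W := hE _ he a (Sym2.mem_mk_left a b)
  have hb : b ∈ W := hE _ he b (Sym2.mem_mk_right a b)
  rw [Finset.sum_mul]
  symm
  refine Finset.sum_nbij' (fun F => insert s(a, b) F) (fun T => T.erase s(a, b)) ?_ ?_ ?_ ?_ ?_
  · intro F hF
    obtain ⟨hFE, hF⟩ := mem_forests.1 hF
    have := isST_insert hF hb (Reachable.refl a) hF.2.1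
    exact Finset.mem_filter.2 ⟨mem_trees.2 ⟨Finset.insert_subset he hFE, this.2⟩,
      Finset.mem_insert_self _ _⟩
  · intro T hT
    obtain ⟨hT, heT⟩ := Finset.mem_filter.1 hT
    obtain ⟨hTE, hT⟩ := mem_trees.1 hT
    exact mem_forests.2 ⟨(Finset.erase_subset _ _).trans hTE,
      isSF_erase ha hb hT (hE _ he) (not_reach_erase hT.1 (gr_adj.2 ⟨heT, hab⟩))⟩
  · intro F hF
    obtain ⟨hFE, hF⟩ := mem_forests.1 hF
    exact Finset.erase_insert (isST_insert hF hb (Reachable.refl a) hF.2.1).1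
  · intro T hT
    exact Finset.insert_erase (Finset.mem_filter.1 hT).2
  · intro F hF
    obtain ⟨hFE, hF⟩ := mem_forests.1 hF
    rw [wt_insert h (isST_insert hF hb (Reachable.refl a) hF.2.1).1]

omit [DecidableEq V] in
lemma dd_sum {ι : Type*} (s : Finset ι) (c : ι → ℝ) (v : ι → V → ℝ) (φ : V → ℝ) (f : Sym2 V) :
    dd (fun u => ∑ i ∈ s, c i * v i u) φ f = ∑ i ∈ s, c i * dd (v i) φ f := by
  induction f using Sym2.ind with
  | _ x y =>
  simp only [dd_mk, ← Finset.sum_sub_distrib, Finset.sum_mul]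
  exact Finset.sum_congr rfl fun i _ => by ring

omit [DecidableEq V] in
lemma dd_ge (v φ : V → ℝ) (t : ℝ) (f : Sym2 V) :
    2 * t * dd v φ f - t ^ 2 * dd v v f ≤ dd φ φ f := by
  induction f using Sym2.ind with
  | _ x y =>
  simp only [dd_mk]
  nlinarith [sq_nonneg (t * (v x - v y) - (φ x - φ y))]

/-- Kirchhoff's theorem together with the Dirichlet principle -/
theorem marg_eq {W : Set V} {E : Finset (Sym2 V)} (hE : ∀ f ∈ E, ∀ x ∈ f, x ∈ W)
    (hd : ∀ f ∈ E, ¬ f.IsDiag) (hne : (trees W E).Nonempty) (h : Sym2 V → ℝ) {e : Sym2 V}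
    (he : e ∈ E) :
    marg (E : Set (Sym2 V)) h e =
      (∑ T ∈ (trees W E).filter (fun T => e ∈ T), wt h T) / ∑ T ∈ trees W E, wt h T := by
  induction e using Sym2.ind with
  | _ a b =>
  have hab : a ≠ b := fun hc => hd _ he (Sym2.mk_isDiag_iff.2 hc)
  have ha : a ∈ W := hE _ he a (Sym2.mem_mk_left a b)
  have hb : b ∈ W := hE _ he b (Sym2.mem_mk_right a b)
  set Z := ∑ T ∈ trees W E, wt h T with hZ
  set Y := ∑ F ∈ forests W E a b, wt h F with hY
  have hZ0 : 0 < Z := Finset.sum_pos (fun T _ => wt_pos h T) hne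
  have hFne : (forests W E a b).Nonempty := by
    by_contra hc
    have := kirchhoff_sum hE ha hb h (fun u => if u = a then 1 else 0)
    rw [Finset.not_nonempty_iff_eq_empty.1 hc] at this
    simp [hab.symm, ← hZ] at this
    exact hZ0.ne' this.symm
  have hY0 : 0 < Y := Finset.sum_pos (fun T _ => wt_pos h T) hFne
  let v : V → ℝ := fun u => ∑ F ∈ forests W E a b, wt h F / Y * chi a F u
  have hva : v a = 1 := by
    simp only [v, chi, Reachable.refl, if_true, mul_one]
    rw [← Finset.sum_div, ← hY, div_self hY0.ne']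
  have hvb : v b = 0 := by
    refine Finset.sum_eq_zero fun F hF => ?_
    simp [chi, (mem_forests.1 hF).2.2.1]
  have hB : ∀ φ : V → ℝ, ∑ f ∈ E, Real.exp (h f) * dd v φ f = Z / Y * (φ a - φ b) := by
    intro φ
    have := kirchhoff_sum hE ha hb h φ
    rw [← hZ] at this
    rw [div_mul_eq_mul_div, ← this, Finset.sum_comm, Finset.sum_div]
    refine Finset.sum_congr rfl fun f _ => ?_
    simp only [v]
    rw [dd_sum, Finset.mul_sum, Finset.sum_div]
    exact Finset.sum_congr rfl fun F _ => by ring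
  have hEv : energy E h v = Z / Y := by
    rw [energy, hB, hva, hvb]; ring
  have hdir : dir E h s(a, b) = ENNReal.ofReal (Z / Y) := by
    refine le_antisymm (iInf_le_of_le ⟨v, by simp [hva, hvb]⟩ (by rw [hEv])) (le_iInf fun φ => ?_)
    refine ENNReal.ofReal_le_ofReal ?_
    have h1 : (φ.1 a - φ.1 b) * (φ.1 a - φ.1 b) = 1 := φ.2
    have h2 : ∑ f ∈ E, Real.exp (h f) * (2 * (φ.1 a - φ.1 b) * dd v φ.1 f -
        (φ.1 a - φ.1 b) ^ 2 * dd v v f) ≤ energy E h φ.1 :=
      Finset.sum_le_sum fun f _ => mul_le_mul_of_nonneg_left (dd_ge _ _ _ _) (Real.exp_pos _).le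
    have h3 : ∑ f ∈ E, Real.exp (h f) * (2 * (φ.1 a - φ.1 b) * dd v φ.1 f -
        (φ.1 a - φ.1 b) ^ 2 * dd v v f) = 2 * (φ.1 a - φ.1 b) * (Z / Y * (φ.1 a - φ.1 b)) -
        (φ.1 a - φ.1 b) ^ 2 * (Z / Y) := by
      rw [← hB, ← hEv, energy, Finset.mul_sum, Finset.mul_sum, ← Finset.sum_sub_distrib]
      exact Finset.sum_congr rfl fun f _ => by ring
    rw [h3] at h2
    have h4 : (φ.1 a - φ.1 b) ^ 2 = 1 := by rw [sq, h1]
    have h5 : 2 * (φ.1 a - φ.1 b) * (Z / Y * (φ.1 a - φ.1 b)) =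
      2 * (Z / Y) * ((φ.1 a - φ.1 b) * (φ.1 a - φ.1 b)) := by ring
    rw [h4, h5, h1] at h2
    linarith
  have he' : s(a, b) ∈ (E : Set (Sym2 V)) := he
  rw [marg, if_pos he', cond_coe, hdir, ENNReal.toReal_ofReal (by positivity),
    kirchhoff_edge hE hab he h, ← hY]
  field_simp

end Vale.Agent.P143
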