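import Vale.Agent.P143.Laplace

open MeasureTheory Set Function
open scoped ENNReal

namespace Vale.Agent.P143

variable {ι : Type*} [DecidableEq ι]

/-- i.i.d. Laplace variables -/
noncomputable def noise (ι : Type*) : Measure (ι → ℝ) := Measure.infinitePi fun _ : ι => lap

instance : IsProbabilityMeasure (noise ι) := by unfold noise; infer_instance

lemma map_update_noise (e : ι) :
    ((noise ι).prod lap).map (fun p : (ι → ℝ) × ℝ => update p.1 e p.2) = noise ι := by
  refine Measure.eq_infinitePi _ fun s t ht => ?_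
  rw [Measure.map_apply measurable_update' (.pi s.countable_toSet fun _ _ => ht _)]
  by_cases he : e ∈ s
  · have : (fun p : (ι → ℝ) × ℝ => update p.1 e p.2) ⁻¹' (Set.pi s t) =
        (Set.pi (s.erase e) t) ×ˢ t e := by
      ext p
      simp only [mem_preimage, Set.mem_pi, Finset.mem_coe, mem_prod, Finset.mem_erase]
      constructor
      · intro h
        refine ⟨fun i hi => ?_, ?_⟩
        · simpa [update_of_ne hi.1] using h i hi.2
        · simpa using h e he
      · intro h i hi
        by_cases hie : i = e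
        · subst hie; simpa using h.2
        · simpa [update_of_ne hie] using h.1 i ⟨hie, hi⟩
    rw [this, Measure.prod_prod, noise, Measure.infinitePi_pi _ (fun i _ => ht i),
      Finset.prod_erase_mul _ _ he]
  · have : (fun p : (ι → ℝ) × ℝ => update p.1 e p.2) ⁻¹' (Set.pi s t) =
        (Set.pi s t) ×ˢ univ := by
      ext p
      simp only [mem_preimage, Set.mem_pi, Finset.mem_coe, mem_prod, mem_univ, and_true]
      refine forall₂_congr fun i hi => ?_
      have : i ≠ e := fun hc => he (hc ▸ hi)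
      rw [update_of_ne this]
    rw [this, Measure.prod_prod, noise, Measure.infinitePi_pi _ (fun i _ => ht i)]
    simp

lemma lintegral_update_noise (e : ι) {g : (ι → ℝ) → ℝ≥0∞} (hg : Measurable g) :
    ∫⁻ z, g z ∂(noise ι) = ∫⁻ z, ∫⁻ x, g (update z e x) ∂lap ∂(noise ι) := by
  conv_lhs => rw [← map_update_noise e]
  rw [lintegral_map hg measurable_update', lintegral_prod]
  exact (hg.comp measurable_update').aemeasurable

lemma measurable_upd (e : ι) {τ : (ι → ℝ) → ℝ} (hτ : Measurable τ) :
    Measurable fun z => update z e (τ z) :=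
  measurable_update'.comp (measurable_id.prodMk hτ)

lemma map_one_coord (e : ι) {τ : (ι → ℝ) → ℝ} (hτ : Measurable τ) {D D' : (ι → ℝ) → ℝ≥0∞}
    (hD : Measurable D) (hD' : Measurable D')
    (h : ∀ z, (lap.withDensity fun x => D (update z e x)).map (fun x => τ (update z e x)) =
      lap.withDensity fun x => D' (update z e x)) :
    ((noise ι).withDensity D).map (fun z => update z e (τ z)) = (noise ι).withDensity D' := by
  have hR := measurable_upd e hτ
  refine Measure.ext_of_lintegral _ fun g hg => ?_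
  rw [lintegral_map hg hR, lintegral_withDensity_eq_lintegral_mul _ hD (hg.fun_comp hR),
    lintegral_withDensity_eq_lintegral_mul _ hD' hg,
    lintegral_update_noise e (hD.mul (hg.fun_comp hR)), lintegral_update_noise e (hD'.mul hg)]
  refine lintegral_congr fun z => ?_
  have hu : Measurable (update z e) := measurable_update z
  have h1 := congrArg (fun μ => ∫⁻ x, g (update z e x) ∂μ) (h z)
  rw [lintegral_map (hg.fun_comp hu) (hτ.fun_comp hu),
    lintegral_withDensity_eq_lintegral_mul _ (hD.fun_comp hu)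
      ((hg.fun_comp hu).fun_comp (hτ.fun_comp hu)),
    lintegral_withDensity_eq_lintegral_mul _ (hD'.fun_comp hu) (hg.fun_comp hu)] at h1
  simpa using h1

/-- shift the coordinates in `T` -/
def shift (T : Finset ι) (s : ι → ℝ) (z : ι → ℝ) : ι → ℝ :=
  fun f => if f ∈ T then z f + s f else z f

lemma measurable_shift (T : Finset ι) (s : ι → ℝ) : Measurable (shift T s) := by
  refine measurable_pi_iff.2 fun f => ?_
  unfold shift
  split_ifs <;> fun_prop

/-- likelihood ratio of a shifted configuration -/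
noncomputable def lik (T : Finset ι) (s : ι → ℝ) (z : ι → ℝ) : ℝ :=
  Real.exp (∑ f ∈ T, lr (s f) (z f))

omit [DecidableEq ι] in
lemma measurable_lik (T : Finset ι) (s : ι → ℝ) : Measurable (lik T s) := by
  unfold lik lr
  fun_prop

omit [DecidableEq ι] in
lemma lik_pos (T : Finset ι) (s z : ι → ℝ) : 0 < lik T s z := Real.exp_pos _

lemma lik_update_of_notMem {T : Finset ι} {e : ι} (he : e ∉ T) (s z : ι → ℝ) (x : ℝ) :
    lik T s (update z e x) = lik T s z := by
  unfold lik
  congr 1
  refine Finset.sum_congr rfl fun f hf => ?_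
  rw [update_of_ne (show f ≠ e from fun hc => he (hc ▸ hf))]

lemma lik_insert {T : Finset ι} {e : ι} (he : e ∉ T) (s z : ι → ℝ) :
    lik (insert e T) s z = lik T s z * Real.exp (lr (s e) (z e)) := by
  unfold lik
  rw [Finset.sum_insert he, Real.exp_add, mul_comm]

lemma map_shift (T : Finset ι) (s : ι → ℝ) :
    (noise ι).map (shift T s) = (noise ι).withDensity fun z => ENNReal.ofReal (lik T s z) := by
  induction T using Finset.induction_on with
  | empty =>
    have : shift (∅ : Finset ι) s = id := by ext z f; simp [shift]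
    simp [this, lik]
  | insert e T he ih =>
    have h1 : shift (insert e T) s = (fun z => update z e (z e + s e)) ∘ shift T s := by
      ext z f
      by_cases hf : f = e
      · subst hf; simp [shift, he]
      · simp [shift, hf]
    have hτ : Measurable fun z : ι → ℝ => z e + s e := by fun_prop
    rw [h1, ← Measure.map_map (measurable_upd e hτ) (measurable_shift T s), ih]
    refine map_one_coord e hτ (measurable_lik T s).ennreal_ofReal
      (measurable_lik _ s).ennreal_ofReal fun z => ?_
    simp only [lik_insert he, lik_update_of_notMem he, update_self]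
    refine Measure.ext_of_lintegral _ fun g hg => ?_
    have hm : Measurable fun x => ENNReal.ofReal (Real.exp (lr (s e) x)) := by
      unfold lr; fun_prop
    have hm2 : Measurable fun x => ENNReal.ofReal (lik T s z * Real.exp (lr (s e) x)) := by
      unfold lr; fun_prop
    rw [lintegral_map hg (measurable_add_const _),
      lintegral_withDensity_eq_lintegral_mul _ measurable_const
        (hg.fun_comp (measurable_add_const _)),
      lintegral_withDensity_eq_lintegral_mul _ hm2 hg]
    simp only [Pi.mul_apply]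
    rw [lintegral_const_mul _ (hg.fun_comp (measurable_add_const _)), lintegral_lap_shift hg,
      ← lintegral_const_mul _ (hm.fun_mul hg)]
    refine lintegral_congr fun x => ?_
    rw [ENNReal.ofReal_mul (lik_pos T s z).le, mul_assoc]

/-- unnormalised law of the noisy observation -/
noncomputable def pm (𝒯 : Finset (Finset ι)) (s : ι → ℝ) : Measure (ι → ℝ) :=
  (noise ι).withDensity fun z => ENNReal.ofReal (∑ T ∈ 𝒯, lik T s z)

lemma pm_apply (𝒯 : Finset (Finset ι)) (s : ι → ℝ) {B : Set (ι → ℝ)} (hB : MeasurableSet B) :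
    pm 𝒯 s B = ∑ T ∈ 𝒯, noise ι (shift T s ⁻¹' B) := by
  rw [pm, withDensity_apply _ hB]
  simp_rw [ENNReal.ofReal_sum_of_nonneg (fun T _ => (lik_pos T s _).le)]
  rw [lintegral_finsetSum _ (fun T _ => (measurable_lik T s).ennreal_ofReal)]
  refine Finset.sum_congr rfl fun T _ => ?_
  rw [← Measure.map_apply (measurable_shift T s) hB, map_shift, withDensity_apply _ hB]

lemma pm_zero (𝒯 : Finset (Finset ι)) : pm 𝒯 (fun _ => 0) = (𝒯.card : ℝ≥0∞) • noise ι := by
  ext B hB
  rw [pm_apply _ _ hB]
  have : ∀ T : Finset ι, shift T (fun _ => 0) = id := fun T => by ext z f; simp [shift]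
  simp [this]

/-- posterior probability that `e` is present -/
noncomputable def post (𝒯 : Finset (Finset ι)) (h : ι → ℝ) (e : ι) : ℝ :=
  (∑ T ∈ 𝒯.filter (fun T => e ∈ T), Real.exp (∑ f ∈ T, h f)) / ∑ T ∈ 𝒯, Real.exp (∑ f ∈ T, h f)

lemma exists_one_step {𝒯 : Finset (Finset ι)} (hne : 𝒯.Nonempty) (s : ι → ℝ) (e : ι) {δ : ℝ}
    (hδ : 0 ≤ δ) : ∃ τ : (ι → ℝ) → ℝ, Measurable τ ∧
      (pm 𝒯 s).map (fun z => update z e (τ z)) = pm 𝒯 (update s e (s e + δ)) ∧
      ∀ z, |τ z - z e| ≤ δ ∧
        |τ z - z e - δ * post 𝒯 (fun f => lr (s f) (z f)) e| ≤ 2 * δ ^ 2 := by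
  let A : (ι → ℝ) → ℝ := fun z => ∑ T ∈ 𝒯.filter (fun T => e ∉ T), lik T s z
  let B : (ι → ℝ) → ℝ := fun z => ∑ T ∈ 𝒯.filter (fun T => e ∈ T), lik (T.erase e) s z
  have hA : ∀ z, 0 ≤ A z := fun z => Finset.sum_nonneg fun T _ => (lik_pos _ _ _).le
  have hB : ∀ z, 0 ≤ B z := fun z => Finset.sum_nonneg fun T _ => (lik_pos _ _ _).le
  have hAB : ∀ z, 0 < A z + B z := by
    intro z
    obtain ⟨T, hT⟩ := hne
    by_cases he : e ∈ T
    · have : 0 < B z := Finset.sum_pos (fun T _ => lik_pos _ _ _) ⟨T, by simp [hT, he]⟩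
      linarith [hA z]
    · have : 0 < A z := Finset.sum_pos (fun T _ => lik_pos _ _ _) ⟨T, by simp [hT, he]⟩
      linarith [hB z]
  have mA : Measurable A := Finset.measurable_sum _ fun T _ => measurable_lik T s
  have mB : Measurable B := Finset.measurable_sum _ fun T _ => measurable_lik _ s
  have uA : ∀ z x, A (update z e x) = A z := fun z x => Finset.sum_congr rfl fun T hT =>
    lik_update_of_notMem (Finset.mem_filter.1 hT).2 s z x
  have uB : ∀ z x, B (update z e x) = B z := fun z x => Finset.sum_congr rfl fun T _ =>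
    lik_update_of_notMem (Finset.notMem_erase e T) s z x
  have hlik : ∀ (r : ℝ) (T : Finset ι), e ∉ T → ∀ z, lik T (update s e r) z = lik T s z := by
    intro r T hT z
    unfold lik
    congr 1
    refine Finset.sum_congr rfl fun f hf => ?_
    rw [update_of_ne (show f ≠ e from fun hc => hT (hc ▸ hf))]
  have hB2 : ∀ (r : ℝ) z, ∑ T ∈ 𝒯.filter (fun T => e ∈ T), lik T (update s e r) z =
      B z * Real.exp (lr r (z e)) := by
    intro r z
    rw [Finset.sum_mul]
    refine Finset.sum_congr rfl fun T hT => ?_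
    conv_lhs => rw [← Finset.insert_erase (Finset.mem_filter.1 hT).2]
    rw [lik_insert (Finset.notMem_erase e T), hlik r _ (Finset.notMem_erase e T), update_self]
  have hsum : ∀ (r : ℝ) z, ∑ T ∈ 𝒯, lik T (update s e r) z =
      A z + B z * Real.exp (lr r (z e)) := by
    intro r z
    rw [← Finset.sum_filter_not_add_sum_filter 𝒯 (fun T => e ∈ T), hB2]
    congr 1
    exact Finset.sum_congr rfl fun T hT => hlik r T (Finset.mem_filter.1 hT).2 z
  have hsum0 : ∀ z, ∑ T ∈ 𝒯, lik T s z = A z + B z * Real.exp (lr (s e) (z e)) := by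
    intro z
    rw [← hsum, update_eq_self]
  let τ : (ι → ℝ) → ℝ := fun z => tr (A z) (B z) (s e) δ (z e)
  have mτ : Measurable τ := by
    refine measurable_of_Iic fun y => ?_
    have : τ ⁻¹' Iic y =
        {z | mixF (A z) (B z) (s e) (z e) ≤ mixF (A z) (B z) (s e + δ) y} := by
      ext z; exact tr_le_iff (hA z) (hB z) (hAB z) _ hδ _ y
    rw [this]
    have := continuous_cdfL.measurable
    refine measurableSet_le ?_ ?_ <;> unfold mixF <;> fun_prop
  refine ⟨τ, mτ, ?_, fun z => ⟨?_, ?_⟩⟩
  · refine map_one_coord e mτ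
      (Finset.measurable_sum _ fun T _ => measurable_lik T _).ennreal_ofReal
      (Finset.measurable_sum _ fun T _ => measurable_lik T _).ennreal_ofReal fun z => ?_
    simp only [hsum, hsum0, τ, uA, uB, update_self]
    exact map_tr (hA z) (hB z) (hAB z) (s e) hδ
  · have := (tr_spec (hA z) (hB z) (s e) hδ (z e)).1
    rw [abs_le]
    constructor <;> linarith [this.1, this.2]
  · have := tr_estimate (hA z) (hB z) (hAB z) (s e) hδ (z e)
    have h1 := hB2 (s e) z
    rw [update_eq_self] at h1
    rw [← hsum0, ← h1] at this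
    exact this

lemma exists_sweep {𝒯 : Finset (Finset ι)} (hne : 𝒯.Nonempty) {E : Finset ι}
    {m : (ι → ℝ) → ι → ℝ} (hm : ∀ h, ∀ e ∈ E, m h e = post 𝒯 h e)
    (hlip : ∀ h h' t, (∀ f, |h f - h' f| ≤ t) → ∀ e, |m h e - m h' e| ≤ 2 * t)
    (s : ℝ) {δ : ℝ} (hδ : 0 ≤ δ) (S : Finset ι) (hS : S ⊆ E) :
    ∃ R : (ι → ℝ) → (ι → ℝ), Measurable R ∧
      (pm 𝒯 fun _ => s).map R = pm 𝒯 (fun f => if f ∈ S then s + δ else s) ∧
      ∀ z, (∀ f ∉ S, R z f = z f) ∧ (∀ f, |R z f - z f| ≤ δ) ∧
        ∀ f ∈ S, |R z f - z f - δ * m (fun f => lr s (z f)) f| ≤ 8 * δ ^ 2 := by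
  induction S using Finset.induction_on with
  | empty => exact ⟨id, measurable_id, by simp, fun z => by simp [hδ]⟩
  | insert e S he ih =>
    obtain ⟨R, mR, hR1, hR2⟩ := ih ((Finset.subset_insert e S).trans hS)
    obtain ⟨τ, mτ, hτ1, hτ2⟩ := exists_one_step hne (fun f => if f ∈ S then s + δ else s) e hδ
    refine ⟨(fun z => update z e (τ z)) ∘ R, (measurable_upd e mτ).comp mR, ?_, fun z => ?_⟩
    · rw [← Measure.map_map (measurable_upd e mτ) mR, hR1, hτ1]
      congr 1
      ext f
      by_cases hf : f = e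
      · subst hf; simp [he]
      · simp [hf]
    · obtain ⟨a1, a2, a3⟩ := hR2 z
      obtain ⟨b1, b2⟩ := hτ2 (R z)
      rw [a1 e he] at b1 b2
      refine ⟨fun f hf => ?_, fun f => ?_, fun f hf => ?_⟩
      · rw [Finset.mem_insert, not_or] at hf
        simp only [comp_apply, update_of_ne hf.1]
        exact a1 f hf.2
      · by_cases hf : f = e
        · subst hf; simpa using b1
        · simpa [hf] using a2 f
      · by_cases hfe : f = e
        · subst hfe
          simp only [comp_apply, update_self]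
          rw [← hm _ f (hS (Finset.mem_insert_self _ _))] at b2
          have c1 := hlip (fun g => lr (if g ∈ S then s + δ else s) (R z g)) (fun g => lr s (z g))
            (3 * δ) (fun g => by
              refine (lr_lip _ _ _ _).trans ?_
              have : |(if g ∈ S then s + δ else s) - s| ≤ δ := by
                split_ifs <;> simp [abs_of_nonneg hδ, hδ]
              linarith [a2 g]) f
          have c2 := mul_le_mul_of_nonneg_left c1 hδ
          rw [← abs_of_nonneg hδ, ← abs_mul, abs_of_nonneg hδ] at c2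
          rw [abs_le] at b2 c2 ⊢
          constructor <;> nlinarith [b2.1, b2.2, c2.1, c2.2]
        · simp only [comp_apply, update_of_ne hfe]
          exact a3 f ((Finset.mem_insert.1 hf).resolve_left hfe)

theorem exists_chain {𝒯 : Finset (Finset ι)} (hne : 𝒯.Nonempty) {E : Finset ι}
    (hT : ∀ T ∈ 𝒯, T ⊆ E)
    {m : (ι → ℝ) → ι → ℝ} (hm : ∀ h, ∀ e ∈ E, m h e = post 𝒯 h e) (hm0 : ∀ h, ∀ e ∉ E, m h e = 0)
    (hlip : ∀ h h' t, (∀ f, |h f - h' f| ≤ t) → ∀ e, |m h e - m h' e| ≤ 2 * t)
    {δ : ℝ} (hδ : 0 ≤ δ) :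
    ∃ w : ℕ → (ι → ℝ) → (ι → ℝ), (∀ k, Measurable (w k)) ∧ w 0 = id ∧
      (∀ k : ℕ, ∀ B, MeasurableSet B → (𝒯.card : ℝ≥0∞) * noise ι (w k ⁻¹' B) =
        ∑ T ∈ 𝒯, noise ι (shift T (fun _ => k * δ) ⁻¹' B)) ∧
      ∀ (k : ℕ) z f,
        |w (k + 1) z f - w k z f - δ * m (fun f => lr (k * δ) (w k z f)) f| ≤ 8 * δ ^ 2 := by
  have key : ∀ k : ℕ, ∃ R : (ι → ℝ) → (ι → ℝ), Measurable R ∧
      (pm 𝒯 fun _ => k * δ).map R = pm 𝒯 (fun _ => ((k + 1 : ℕ) : ℝ) * δ) ∧
      ∀ z f, |R z f - z f - δ * m (fun f => lr (k * δ) (z f)) f| ≤ 8 * δ ^ 2 := by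
    intro k
    obtain ⟨R, mR, h1, h2⟩ := exists_sweep hne hm hlip (k * δ) hδ E subset_rfl
    refine ⟨R, mR, ?_, fun z f => ?_⟩
    · rw [h1]
      unfold pm
      congr 1
      ext z
      congr 1
      refine Finset.sum_congr rfl fun T hT' => ?_
      unfold lik
      congr 1
      refine Finset.sum_congr rfl fun f hf => ?_
      simp only [if_pos (hT T hT' hf)]
      congr 1
      push_cast
      ring
    · by_cases hf : f ∈ E
      · exact (h2 z).2.2 f hf
      · rw [(h2 z).1 f hf, hm0 _ f hf]
        simp only [sub_self, mul_zero, abs_zero]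
        positivity
  choose R mR hR1 hR2 using key
  let w : ℕ → (ι → ℝ) → (ι → ℝ) := fun k => Nat.rec id (fun k wk => R k ∘ wk) k
  have hw : ∀ k, w (k + 1) = R k ∘ w k := fun k => rfl
  have mw : ∀ k, Measurable (w k) := by
    intro k
    induction k with
    | zero => exact measurable_id
    | succ k ih => exact (mR k).comp ih
  have hlaw : ∀ k : ℕ, (pm 𝒯 fun _ => 0).map (w k) = pm 𝒯 fun _ => k * δ := by
    intro k
    induction k with
    | zero => simp [w]
    | succ k ih => rw [hw, ← Measure.map_map (mR k) (mw k), ih, hR1]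
  refine ⟨w, mw, rfl, fun k B hB => ?_, fun k z f => hR2 k (w k z) f⟩
  rw [← pm_apply _ _ hB, ← hlaw, Measure.map_apply (mw k) hB, pm_zero]
  rfl

end Vale.Agent.P143
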