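import Vale.Agent.P143.Euler
import Vale.Agent.P143.Transport
import Vale.Agent.P143.Kirchhoff

open MeasureTheory Filter Topology Set
open scoped ENNReal

namespace Vale.Agent.P143

variable {V : Type*}

/-- sign pattern in `A` with margin `r` on `S` -/
def good (S : Finset (Sym2 V)) (A : Set (Sym2 V → Bool)) (r : ℝ) : Set (Sym2 V → ℝ) :=
  {y | (fun e => decide (0 < y e)) ∈ A ∧ ∀ e ∈ S, r < |y e|}

/-- `A` depends only on the coordinates in `S` -/
def Det (S : Finset (Sym2 V)) (A : Set (Sym2 V → Bool)) : Prop :=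
  ∀ ω ω' : Sym2 V → Bool, (∀ e ∈ S, ω e = ω' e) → ω ∈ A → ω' ∈ A

lemma Det.compl {S : Finset (Sym2 V)} {A : Set (Sym2 V → Bool)} (h : Det S A) : Det S Aᶜ :=
  fun ω ω' hω h1 h2 => h1 (h ω' ω (fun e he => (hω e he).symm) h2)

lemma measurableSet_good {S : Finset (Sym2 V)} {A : Set (Sym2 V → Bool)} (hA : MeasurableSet A)
    (r : ℝ) : MeasurableSet (good S A r) := by
  have h1 : Measurable fun (y : Sym2 V → ℝ) (e : Sym2 V) => decide (0 < y e) := by
    refine measurable_pi_iff.2 fun e => measurable_to_bool ?_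
    have : (fun y : Sym2 V → ℝ => decide (0 < y e)) ⁻¹' {true} = {y | 0 < y e} := by
      ext y; simp
    rw [this]
    exact measurableSet_lt measurable_const (measurable_pi_apply e)
  have h2 : good S A r = (fun (y : Sym2 V → ℝ) (e : Sym2 V) => decide (0 < y e)) ⁻¹' A ∩
      ⋂ e ∈ S, {y | r < |y e|} := by
    ext y; simp [good]
  rw [h2]
  refine (h1 hA).inter (Finset.measurableSet_biInter S fun e _ => ?_)
  exact measurableSet_lt measurable_const (by fun_prop)

lemma good_mono {S : Finset (Sym2 V)} {A : Set (Sym2 V → Bool)} (hA : Det S A) {r : ℝ}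
    (hr : 0 ≤ r) {y y' : Sym2 V → ℝ} (hy : y ∈ good S A (r + 1)) (h : ∀ e ∈ S, |y e - y' e| ≤ 1) :
    y' ∈ good S A r := by
  refine ⟨hA _ _ (fun e he => ?_) hy.1, fun e he => ?_⟩
  · have h1 := hy.2 e he
    have h2 := abs_le.1 (h e he)
    rw [decide_eq_decide]
    rcases lt_abs.1 h1 with h1 | h1 <;> constructor <;> intro _ <;> linarith [h2.1, h2.2]
  · have h1 := hy.2 e he
    have h2 := abs_le.1 (h e he)
    rw [lt_abs] at h1 ⊢
    rcases h1 with h1 | h1
    · left; linarith [h2.1, h2.2]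
    · right; linarith [h2.1, h2.2]

/-- error probability at level `j` -/
noncomputable def eps (j : ℕ) : ℝ≥0∞ := ENNReal.ofReal (2 * Real.exp (-((j : ℝ) / 2 - 4)))

lemma tsum_eps_ne_top : ∑' j, eps j ≠ ⊤ := by
  refine Summable.tsum_ofReal_ne_top (Summable.mul_left _ ?_)
  have h1 : ∀ j : ℕ, Real.exp (-((j : ℝ) / 2 - 4)) = Real.exp 4 * Real.exp (-(1 / 2)) ^ j := by
    intro j
    rw [← Real.exp_nat_mul, ← Real.exp_add]
    congr 1
    ring
  simp only [h1]
  exact (summable_geometric_of_lt_one (Real.exp_pos _).le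
    (Real.exp_lt_one_iff.2 (by norm_num))).mul_left _

open Classical in
/-- indicator configuration -/
noncomputable def ind (T : Finset (Sym2 V)) : Sym2 V → Bool := fun e => decide (e ∈ T)

open Classical in
/-- uniform probability of `A` on the family `𝒯` -/
noncomputable def un (𝒯 : Finset (Finset (Sym2 V))) (A : Set (Sym2 V → Bool)) : ℝ≥0∞ :=
  ((𝒯.filter fun T => ind T ∈ A).card : ℝ≥0∞) / 𝒯.card

lemma un_add_compl {𝒯 : Finset (Finset (Sym2 V))} (hne : 𝒯.Nonempty) (A : Set (Sym2 V → Bool)) :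
    un 𝒯 A + un 𝒯 Aᶜ = 1 := by
  classical
  unfold un
  rw [← ENNReal.add_div, ← Nat.cast_add]
  have := Finset.card_filter_add_card_filter_not (s := 𝒯) (fun T => ind T ∈ A)
  simp only [mem_compl_iff]
  rw [ENNReal.div_eq_one_iff (by simpa using hne.ne_empty) (by simp)]
  convert congrArg (Nat.cast : ℕ → ℝ≥0∞) this

lemma one_le_shift [DecidableEq V] {S : Finset (Sym2 V)} {A : Set (Sym2 V → Bool)} (hA : Det S A)
    (j : ℕ) {T : Finset (Sym2 V)} (hT : ind T ∈ A) :
    1 ≤ noise (Sym2 V) (shift T (fun _ => (j : ℝ)) ⁻¹'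
      ((fun z e => z e - (j : ℝ) / 2) ⁻¹' good S A 4)) + S.card * eps j := by
  have hsub : (univ : Set (Sym2 V → ℝ)) ⊆ (shift T (fun _ => (j : ℝ)) ⁻¹'
      ((fun z e => z e - (j : ℝ) / 2) ⁻¹' good S A 4)) ∪
      ⋃ e ∈ S, (fun ξ => ξ e) ⁻¹' {x | (j : ℝ) / 2 - 4 ≤ |x|} := by
    intro ξ _
    rw [mem_union, or_iff_not_imp_right]
    intro hξ
    simp only [mem_iUnion, mem_preimage, mem_ofPred_eq, not_exists, not_le] at hξ
    refine ⟨hA _ _ (fun e he => ?_) hT, fun e he => ?_⟩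
    · have h := abs_lt.1 (hξ e he)
      simp only [ind, shift]
      rw [decide_eq_decide]
      by_cases heT : e ∈ T
      · simp only [heT, if_true, true_iff]; linarith [h.1]
      · simp only [heT, if_false, false_iff, not_lt]; linarith [h.2]
    · have h := abs_lt.1 (hξ e he)
      simp only [shift]
      rw [lt_abs]
      by_cases heT : e ∈ T
      · simp only [heT, if_true]; left; linarith [h.1]
      · simp only [heT, if_false]; right; linarith [h.2]
  rw [← measure_univ (μ := noise (Sym2 V))]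
  refine (measure_mono hsub).trans ((measure_union_le _ _).trans (add_le_add_right ?_ _))
  refine (measure_biUnion_finset_le _ _).trans ?_
  rw [← nsmul_eq_mul, ← Finset.sum_const]
  refine Finset.sum_le_sum fun e _ => ?_
  have hm : MeasurableSet {x : ℝ | (j : ℝ) / 2 - 4 ≤ |x|} :=
    measurableSet_le measurable_const (by fun_prop)
  rw [← Measure.map_apply (measurable_pi_apply e) hm, noise, Measure.infinitePi_map_eval]
  exact lap_tail _

/-- a finite network with at least one spanning tree -/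
structure Net (W : Set V) (E : Finset (Sym2 V)) : Prop where
  mem : ∀ f ∈ E, ∀ x ∈ f, x ∈ W
  nd : ∀ f ∈ E, ¬ f.IsDiag
  ne : (trees W E).Nonempty

lemma fin_bound {W : Set V} {E : Finset (Sym2 V)} (hN : Net W E) {S : Finset (Sym2 V)}
    {A : Set (Sym2 V → Bool)} (hA : Det S A) (mA : MeasurableSet A) (j : ℕ) :
    un (trees W E) A ≤ noise (Sym2 V) {ξ | yy (E : Set (Sym2 V)) ξ j ∈ good S A 3} +
      S.card * eps j := by
  classical
  have hNj := nSteps_pos j
  obtain ⟨w, mw, hw0, hw1, hw2⟩ := exists_chain (ι := Sym2 V) hN.ne (E := E)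
    (fun T hT => (mem_trees.1 hT).1) (m := marg (E : Set (Sym2 V)))
    (fun h e he => by rw [marg_eq hN.mem hN.nd hN.ne h he]; rfl)
    (fun h e he => by simp [marg, he]) (fun h h' t ht e => marg_lipschitz ht e)
    (δ := 1 / nSteps j) (one_div_pos.2 hNj).le
  have hB : MeasurableSet ((fun (z : Sym2 V → ℝ) e => z e - (j : ℝ) / 2) ⁻¹' good S A 4) :=
    (by fun_prop : Measurable fun (z : Sym2 V → ℝ) e => z e - (j : ℝ) / 2)
      (measurableSet_good mA 4)
  have h1 := hw1 (j * nSteps j) _ hB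
  have e1 : ((j * nSteps j : ℕ) : ℝ) * (1 / nSteps j) = j := by push_cast; field_simp
  rw [e1] at h1
  have h2 : w (j * nSteps j) ⁻¹' ((fun (z : Sym2 V → ℝ) e => z e - (j : ℝ) / 2) ⁻¹' good S A 4) ⊆
      {ξ | yy (E : Set (Sym2 V)) ξ j ∈ good S A 3} := by
    intro ξ hξ
    refine good_mono hA (r := 3) (by norm_num) (y := fun e => w (j * nSteps j) ξ e - (j : ℝ) / 2)
      (by rw [show (3 : ℝ) + 1 = 4 by norm_num]; exact hξ) fun e _ => ?_
    have := close (E : Set (Sym2 V)) j (w := fun k => w k ξ) (fun k e => hw2 k ξ e) e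
    simp only [hw0, id] at this
    unfold yy
    rwa [sub_sub_sub_cancel_right]
  have hc0 : ((trees W E).card : ℝ≥0∞) ≠ 0 := by simpa using hN.ne.ne_empty
  unfold un
  rw [ENNReal.div_le_iff hc0 (by simp), add_mul, mul_comm _ ((trees W E).card : ℝ≥0∞)]
  refine le_trans ?_ (add_le_add_left (mul_le_mul_right (measure_mono h2) _) _)
  rw [h1, mul_comm _ ((trees W E).card : ℝ≥0∞), ← nsmul_eq_mul (trees W E).card,
    ← Finset.sum_const, ← Finset.sum_add_distrib, Finset.card_eq_sum_ones, Nat.cast_sum]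
  refine le_trans (Finset.sum_le_sum fun T hT => ?_)
    (Finset.sum_le_sum_of_subset (Finset.filter_subset _ _))
  rw [Nat.cast_one]
  exact one_le_shift hA j (Finset.mem_filter.1 hT).2

section limit

variable [Countable V] {𝓔 : Set (Sym2 V)} {Wn : ℕ → Set V} {En : ℕ → Finset (Sym2 V)}

lemma lim_bound (hN : ∀ n, Net (Wn n) (En n)) (hsub : ∀ n, (En n : Set (Sym2 V)) ⊆ 𝓔)
    (hex : ∀ f ∈ 𝓔, ∀ᶠ n in atTop, f ∈ (En n : Set (Sym2 V)))
    (hfin : ∀ h, ∀ e ∈ 𝓔, cond 𝓔 h e ≠ ⊤) {S : Finset (Sym2 V)}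
    {A : Set (Sym2 V → Bool)} (hA : Det S A) (mA : MeasurableSet A) (j : ℕ) {η : ℝ≥0∞}
    (hη : 0 < η) : ∀ᶠ n in atTop, un (trees (Wn n) (En n)) A ≤
      noise (Sym2 V) {ξ | yy 𝓔 ξ j ∈ good S A 2} + S.card * eps j + η := by
  let bad : ℕ → Set (Sym2 V → ℝ) := fun n =>
    ⋃ e ∈ S, {ξ | 1 < |yy (En n : Set (Sym2 V)) ξ j e - yy 𝓔 ξ j e|}
  have my : ∀ (𝓕 : Set (Sym2 V)) e, Measurable fun ξ => yy 𝓕 ξ j e := fun 𝓕 e =>
    (measurable_yy j e).comp (measurable_const.prodMk measurable_id)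
  have mbad : ∀ n, MeasurableSet (bad n) := fun n =>
    Finset.measurableSet_biUnion S fun e _ =>
      measurableSet_lt measurable_const ((my _ e).sub (my _ e)).abs
  have hbad : Tendsto (fun n => noise (Sym2 V) (bad n)) atTop (𝓝 (noise (Sym2 V) ∅)) := by
    refine tendsto_measure_of_tendsto_indicator_of_isFiniteMeasure atTop _ mbad fun ξ => ?_
    have : ∀ᶠ n in atTop, ∀ e ∈ S, |yy (En n : Set (Sym2 V)) ξ j e - yy 𝓔 ξ j e| < 1 := by
      refine (eventually_all_finset S).2 fun e _ => ?_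
      have h1 := (tendsto_euler hsub hex hfin (1 / nSteps j) ξ (j * nSteps j) e).sub_const
        ((j : ℝ) / 2)
      exact Metric.tendsto_nhds.1 h1 1 one_pos
    filter_upwards [this] with n hn
    simp only [bad, mem_iUnion, mem_ofPred_eq, mem_empty_iff_false, iff_false, not_exists, not_lt]
    exact fun e he => (hn e he).le
  rw [measure_empty] at hbad
  filter_upwards [(tendsto_order.1 hbad).2 η hη] with n hn
  refine (fin_bound (hN n) hA mA j).trans ?_
  rw [add_right_comm]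
  refine add_le_add_left ?_ _
  have hs : {ξ | yy (En n : Set (Sym2 V)) ξ j ∈ good S A 3} ⊆
      {ξ | yy 𝓔 ξ j ∈ good S A 2} ∪ bad n := by
    intro ξ hξ
    rw [mem_union, or_iff_not_imp_right]
    intro hb
    simp only [bad, mem_iUnion, mem_ofPred_eq, not_exists, not_lt] at hb
    exact good_mono hA (r := 2) (by norm_num)
      (by rw [show (2 : ℝ) + 1 = 3 by norm_num]; exact hξ) hb
  exact (measure_mono hs).trans ((measure_union_le _ _).trans (add_le_add_right hn.le _))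

lemma small_bound (hN : ∀ n, Net (Wn n) (En n)) (hsub : ∀ n, (En n : Set (Sym2 V)) ⊆ 𝓔)
    (hex : ∀ f ∈ 𝓔, ∀ᶠ n in atTop, f ∈ (En n : Set (Sym2 V)))
    (hfin : ∀ h, ∀ e ∈ 𝓔, cond 𝓔 h e ≠ ⊤) (j : ℕ) (e : Sym2 V) :
    noise (Sym2 V) {ξ | |yy 𝓔 ξ j e| ≤ 2} ≤ eps j := by
  refine ENNReal.le_of_forall_pos_le_add fun η hη _ => ?_
  obtain ⟨n, hn⟩ := (lim_bound hN hsub hex hfin (S := {e}) (A := univ)
    (fun _ _ _ _ => mem_univ _) MeasurableSet.univ j (η := η) (by exact_mod_cast hη)).exists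
  have h1 : un (trees (Wn n) (En n)) univ = 1 := by
    have := un_add_compl (hN n).ne (univ : Set (Sym2 V → Bool))
    simpa [un] using this
  have my : Measurable fun ξ => yy 𝓔 ξ j e :=
    (measurable_yy j e).comp (measurable_const.prodMk measurable_id)
  have h2 : {ξ | |yy 𝓔 ξ j e| ≤ 2} = {ξ | yy 𝓔 ξ j ∈ good {e} univ 2}ᶜ := by
    ext ξ; simp [good]
  have h3 : MeasurableSet {ξ | yy 𝓔 ξ j ∈ good {e} univ 2} := by
    rw [← MeasurableSet.compl_iff, ← h2]
    exact measurableSet_le my.abs measurable_const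
  rw [h2, prob_compl_eq_one_sub h3, tsub_le_iff_left, ← h1, ← add_assoc]
  simpa using hn

lemma main_upper (hN : ∀ n, Net (Wn n) (En n)) (hsub : ∀ n, (En n : Set (Sym2 V)) ⊆ 𝓔)
    (hex : ∀ f ∈ 𝓔, ∀ᶠ n in atTop, f ∈ (En n : Set (Sym2 V)))
    (hfin : ∀ h, ∀ e ∈ 𝓔, cond 𝓔 h e ≠ ⊤) {S : Finset (Sym2 V)}
    {A : Set (Sym2 V → Bool)} (hA : Det S A) (mA : MeasurableSet A) {η : ℝ≥0∞}
    (hη : 0 < η) : ∀ᶠ n in atTop, un (trees (Wn n) (En n)) A ≤
      noise (Sym2 V) {ξ | xx 𝓔 ξ ∈ A} + η := by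
  have ht := ENNReal.tendsto_sum_nat_add eps tsum_eps_ne_top
  have ht2 : Tendsto (fun j => (S.card : ℝ≥0∞) * ∑' i, eps (i + j) + S.card * ∑' i, eps (i + j))
      atTop (𝓝 0) := by
    have := ENNReal.Tendsto.const_mul (a := (S.card : ℝ≥0∞)) ht (Or.inr (by simp))
    simpa using this.add this
  have hη2 : 0 < η / 2 := ENNReal.half_pos hη.ne'
  obtain ⟨j, hj⟩ := ((tendsto_order.1 ht2).2 _ hη2).exists
  filter_upwards [lim_bound hN hsub hex hfin hA mA j hη2] with n hn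
  refine hn.trans ?_
  have hs : {ξ | yy 𝓔 ξ j ∈ good S A 2} ⊆
      {ξ | xx 𝓔 ξ ∈ A} ∪ ⋃ e ∈ S, ⋃ i, {ξ | |yy 𝓔 ξ (i + j) e| ≤ 2} := by
    intro ξ hξ
    rw [mem_union, or_iff_not_imp_right]
    intro hb
    simp only [mem_iUnion, mem_ofPred_eq, not_exists, not_le] at hb
    refine hA _ _ (fun e he => ?_) hξ.1
    rw [Bool.eq_iff_iff, xx_eq_of_large 𝓔 ξ j e (hb e he)]
    simp
  have h1 : noise (Sym2 V) (⋃ e ∈ S, ⋃ i, {ξ | |yy 𝓔 ξ (i + j) e| ≤ 2}) ≤
      S.card * ∑' i, eps (i + j) := by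
    refine (measure_biUnion_finset_le _ _).trans ?_
    rw [← nsmul_eq_mul, ← Finset.sum_const]
    refine Finset.sum_le_sum fun e _ => (measure_iUnion_le _).trans ?_
    exact ENNReal.tsum_le_tsum fun i => small_bound hN hsub hex hfin _ e
  have h2 : eps j ≤ ∑' i, eps (i + j) := by
    simpa using ENNReal.le_tsum (f := fun i => eps (i + j)) 0
  calc noise (Sym2 V) {ξ | yy 𝓔 ξ j ∈ good S A 2} + S.card * eps j + η / 2
      ≤ (noise (Sym2 V) {ξ | xx 𝓔 ξ ∈ A} + S.card * ∑' i, eps (i + j)) +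
          S.card * ∑' i, eps (i + j) + η / 2 := by
        gcongr
        exact (measure_mono hs).trans ((measure_union_le _ _).trans (add_le_add_right h1 _))
    _ ≤ noise (Sym2 V) {ξ | xx 𝓔 ξ ∈ A} + (η / 2 + η / 2) := by
        rw [add_assoc (noise (Sym2 V) _), add_assoc]
        gcongr
    _ = _ := by rw [ENNReal.add_halves]

lemma measurable_xx' (𝓔 : Set (Sym2 V)) : Measurable fun ξ => xx 𝓔 ξ :=
  measurable_pi_iff.2 fun e => (measurable_xx e).comp (measurable_const.prodMk measurable_id)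

theorem tendsto_un (hN : ∀ n, Net (Wn n) (En n)) (hsub : ∀ n, (En n : Set (Sym2 V)) ⊆ 𝓔)
    (hex : ∀ f ∈ 𝓔, ∀ᶠ n in atTop, f ∈ (En n : Set (Sym2 V)))
    (hfin : ∀ h, ∀ e ∈ 𝓔, cond 𝓔 h e ≠ ⊤) {S : Finset (Sym2 V)}
    {A : Set (Sym2 V → Bool)} (hA : Det S A) (mA : MeasurableSet A) :
    Tendsto (fun n => un (trees (Wn n) (En n)) A) atTop (𝓝 (noise (Sym2 V) (xx 𝓔 ⁻¹' A))) := by
  refine (ENNReal.tendsto_nhds (measure_ne_top _ _)).2 fun η hη => ?_
  filter_upwards [main_upper hN hsub hex hfin hA mA hη,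
    main_upper hN hsub hex hfin hA.compl mA.compl hη] with n h1 h2
  refine ⟨?_, h1⟩
  rw [tsub_le_iff_right]
  have h3 := un_add_compl (hN n).ne A
  have h4 := prob_add_prob_compl (μ := noise (Sym2 V)) (measurable_xx' 𝓔 mA)
  refine (ENNReal.add_le_add_iff_right
    (measure_ne_top (noise (Sym2 V)) (xx 𝓔 ⁻¹' A)ᶜ)).1 ?_
  rw [h4, ← h3, add_assoc]
  refine add_le_add_right ?_ _
  rw [add_comm]
  exact h2

end limit

end Vale.Agent.P143
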