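import Vale.Agent.P143.Noise

open MeasureTheory SimpleGraph

namespace Vale.Agent.P143

lemma measurable_factor' {V : Type*} [Countable V] (G : SimpleGraph V) (e : Sym2 V) :
    Measurable fun U : V → unitInterval => factor G U e :=
  (measurable_factor e).of_uncurry_left (f := fun G U => factor G U e)

lemma cayley_finite {Γ : Type*} [Group Γ] {S : Set Γ} (hS : S.Finite) (u : Γ) :
    ((mulCayley S).neighborSet u).Finite := by
  refine ((hS.image fun g => u * g).union (hS.image fun g => u * g⁻¹)).subset fun v hv => ?_
  obtain ⟨-, g, hg, h | h⟩ := (mulCayley_adj' S u v).1 hv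
  · exact Or.inl ⟨g, hg, h⟩
  · exact Or.inr ⟨g, hg, by simp [h]⟩

lemma cayley_connected {Γ : Type*} [Group Γ] {S : Set Γ} (hS : Subgroup.closure S = ⊤) :
    (mulCayley S).Connected := by
  have step : ∀ x : Γ, ∀ y ∈ S, (mulCayley S).Reachable x (x * y) := by
    intro x y hy
    by_cases h : x = x * y
    · rw [← h]
    · exact ((mulCayley_adj' S _ _).2 ⟨h, y, hy, Or.inl rfl⟩).reachable
  have key : ∀ g : Γ, (mulCayley S).Reachable 1 g := by
    intro g
    have hg : g ∈ Subgroup.closure S := hS ▸ Subgroup.mem_top g
    induction hg using Subgroup.closure_induction_right with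
    | one => exact Reachable.refl _
    | mul_right x _ y hy ih => exact ih.trans (step x y hy)
    | mul_inv_cancel x _ y hy ih =>
      have := step (x * y⁻¹) y hy
      rw [inv_mul_cancel_right] at this
      exact ih.trans this.symm
  exact ⟨fun u v => (key u).symm.trans (key v)⟩

/-- left multiplication as an automorphism of the Cayley graph -/
def cayleyIso {Γ : Type*} [Group Γ] (S : Set Γ) (γ : Γ) : mulCayley S ≃g mulCayley S where
  toEquiv := Equiv.mulLeft γ
  map_rel_iff' := mulCayley_adj_mul_iff_right

theorem cayley_factor (Γ : Type*) [Group Γ] (S : Set Γ) (h1 : S.Finite)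
    (h2 : Subgroup.closure S = ⊤) :
    ∃ Φ : (Γ → unitInterval) → ((mulCayley S).edgeSet → Bool), Measurable Φ ∧
      (∀ (γ : Γ) (U : Γ → unitInterval) (e e' : (mulCayley S).edgeSet),
        (e' : Sym2 Γ) = Sym2.map (fun x => γ * x) e → Φ (fun x => U (γ⁻¹ * x)) e' = Φ U e) ∧
      IsFUSF (mulCayley S) ((iidLabels Γ).map Φ) := by
  have := countable_of_connected (cayley_finite h1) (cayley_connected h2)
  refine ⟨fun U e => factor (mulCayley S) U e, ?_, fun γ U e e' h => ?_,
    isFUSF_factor (cayley_finite h1) (cayley_connected h2)⟩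
  · exact measurable_pi_iff.2 fun e => measurable_factor' (mulCayley S) (e : Sym2 Γ)
  · simp only [h]
    exact factor_map (cayleyIso S γ) U e

end Vale.Agent.P143
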