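import Vale.Agent.P143.Graph

open MeasureTheory ProbabilityTheory Filter Topology Set SimpleGraph
open scoped ENNReal

namespace Vale.Agent.P143

variable {V : Type*}

/-! ### dependence on the edge coordinates only -/

lemma marg_congr {𝓔 : Set (Sym2 V)} {h h' : Sym2 V → ℝ} (hh : ∀ f ∈ 𝓔, h f = h' f)
    (e : Sym2 V) : marg 𝓔 h e = marg 𝓔 h' e := by
  have hc : cond 𝓔 h e = cond 𝓔 h' e := by
    unfold cond
    refine iSup_congr fun S => ?_
    split_ifs with hS
    · unfold dir
      refine iInf_congr fun v => ?_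
      unfold energy
      congr 1
      exact Finset.sum_congr rfl fun f hf => by rw [hh f (hS hf)]
    · rfl
  unfold marg
  split_ifs with he
  · rw [hc, hh e he]
  · rfl

lemma euler_congr {𝓔 : Set (Sym2 V)} (δ : ℝ) {ξ ξ' : Sym2 V → ℝ} (hξ : ∀ f ∈ 𝓔, ξ f = ξ' f)
    (k : ℕ) : ∀ e ∈ 𝓔, euler 𝓔 δ ξ k e = euler 𝓔 δ ξ' k e := by
  induction k with
  | zero => exact hξ
  | succ k ih =>
    intro e he
    rw [euler_succ, euler_succ, ih e he, marg_congr (h' := fun f => lr (k * δ) (euler 𝓔 δ ξ' k f))
      fun f hf => by rw [ih f hf]]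

lemma xx_congr {𝓔 : Set (Sym2 V)} {ξ ξ' : Sym2 V → ℝ} (hξ : ∀ f ∈ 𝓔, ξ f = ξ' f)
    {e : Sym2 V} (he : e ∈ 𝓔) : xx 𝓔 ξ e = xx 𝓔 ξ' e := by
  have : ∀ j, yy 𝓔 ξ j e = yy 𝓔 ξ' j e := fun j => by
    simp only [yy, euler_congr _ hξ _ e he]
  unfold xx
  rw [decide_eq_decide]
  simp only [this]

lemma law_eq [Countable V] (G : SimpleGraph V) {Ω : Type*} [MeasurableSpace Ω] {P : Measure Ω}
    {ξ : Ω → Sym2 V → ℝ} (mξ : Measurable ξ)
    (hξ : P.map (fun ω => res G (ξ ω)) = noise G.edgeSet) :
    P.map (fun ω => res G (xx G.edgeSet (ξ ω))) =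
      (noise (Sym2 V)).map fun z => res G (xx G.edgeSet z) := by
  classical
  let ext : (G.edgeSet → ℝ) → Sym2 V → ℝ := fun y e => if h : e ∈ G.edgeSet then y ⟨e, h⟩ else 0
  have mext : Measurable ext := by
    refine measurable_pi_iff.2 fun e => ?_
    by_cases h : e ∈ G.edgeSet
    · simp only [ext, dif_pos h]; fun_prop
    · simp only [ext, dif_neg h]; fun_prop
  let Ψ : (G.edgeSet → ℝ) → G.edgeSet → Bool := fun y => res G (xx G.edgeSet (ext y))
  have mΨ : Measurable Ψ := (measurable_res G).comp ((measurable_xx' _).comp mext)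
  have key : ∀ z, res G (xx G.edgeSet z) = Ψ (res G z) := by
    intro z
    ext e
    exact xx_congr (fun f hf => by simp [ext, res, hf]) e.2
  have h0 : (noise (Sym2 V)).map (res G) = noise G.edgeSet :=
    Measure.map_infinitePi_infinitePi_of_inj (P := fun _ : Sym2 V => lap) Subtype.val_injective
  simp only [key]
  rw [show (fun ω => Ψ (res G (ξ ω))) = Ψ ∘ fun ω => res G (ξ ω) from rfl,
    show (fun z => Ψ (res G z)) = Ψ ∘ res G from rfl,
    ← Measure.map_map mΨ ((measurable_res G).fun_comp mξ), ← Measure.map_map mΨ (measurable_res G),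
    hξ, h0]

/-! ### edge variables from vertex variables -/

/-- rank of `v` among the neighbours of `u` -/
noncomputable def rank (G : SimpleGraph V) (ω : V × ℕ → ℝ) (u v : V) : ℕ :=
  {w | G.Adj u w ∧ ω (w, 0) < ω (v, 0)}.ncard

/-- contribution of the endpoint with the smaller label -/
noncomputable def half (G : SimpleGraph V) (ω : V × ℕ → ℝ) (u v : V) : ℝ :=
  if ω (u, 0) < ω (v, 0) then ω (u, rank G ω u v + 1) else 0

/-- the variable attached to an edge -/
noncomputable def edgeNoise (G : SimpleGraph V) (ω : V × ℕ → ℝ) : Sym2 V → ℝ :=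
  Sym2.lift ⟨fun u v => half G ω u v + half G ω v u, fun _ _ => add_comm _ _⟩

lemma measurable_half [Countable V] (u v : V) :
    Measurable fun p : SimpleGraph V × (V × ℕ → ℝ) => half p.1 p.2 u v := by
  have h1 : Measurable fun p : SimpleGraph V × (V × ℕ → ℝ) => rank p.1 p.2 u v := by
    refine measurable_ncard.comp (measurable_set_iff.2 fun w => ?_)
    refine Measurable.and ?_ ?_
    · exact (measurable_iff_adj.1 measurable_fst) u w
    · exact measurableSet_setOfPred.1 (measurableSet_lt (by fun_prop) (by fun_prop))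
  have h2 : Measurable fun q : (SimpleGraph V × (V × ℕ → ℝ)) × ℕ => q.1.2 (u, q.2 + 1) :=
    measurable_from_prod_countable_left fun n =>
      (measurable_pi_apply (u, n + 1)).comp measurable_snd
  refine Measurable.ite (measurableSet_lt (by fun_prop) (by fun_prop)) ?_ measurable_const
  exact h2.comp (measurable_id.prodMk h1)

lemma measurable_edgeNoise [Countable V] :
    Measurable fun p : SimpleGraph V × (V × ℕ → ℝ) => edgeNoise p.1 p.2 := by
  refine measurable_pi_iff.2 fun e => ?_
  induction e using Sym2.ind with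
  | _ u v => exact (measurable_half u v).add (measurable_half v u)

lemma edgeNoise_map {W : Type*} {G : SimpleGraph V} {G' : SimpleGraph W} (σ : G ≃g G')
    {ω : V × ℕ → ℝ} {ω' : W × ℕ → ℝ} (h : ∀ v i, ω' (σ v, i) = ω (v, i)) (e : Sym2 V) :
    edgeNoise G' ω' (e.map σ) = edgeNoise G ω e := by
  have h1 : ∀ u v, rank G' ω' (σ u) (σ v) = rank G ω u v := by
    intro u v
    unfold rank
    rw [← ncard_image_of_injective {w | G.Adj u w ∧ ω (w, 0) < ω (v, 0)} σ.injective]
    congr 1
    ext w
    obtain ⟨x, rfl⟩ := σ.surjective w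
    simp only [mem_ofPred_eq, σ.map_adj_iff, h]
    rw [σ.injective.mem_set_image]
    rfl
  have h2 : ∀ u v, half G' ω' (σ u) (σ v) = half G ω u v := by
    intro u v
    simp only [half, h, h1]
  induction e using Sym2.ind with
  | _ u v => simp [edgeNoise, h2]

lemma map_mix {ι : Type*} (p : ι → Prop) [DecidablePred p] :
    ((noise ι).prod (noise ι)).map
      (fun q : (ι → ℝ) × (ι → ℝ) => fun i => if p i then q.1 i else q.2 i) = noise ι := by
  have hm : Measurable fun q : (ι → ℝ) × (ι → ℝ) => fun i => if p i then q.1 i else q.2 i := by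
    refine measurable_pi_iff.2 fun i => ?_
    split_ifs <;> fun_prop
  refine Measure.eq_infinitePi _ fun s t ht => ?_
  rw [Measure.map_apply hm (.pi s.countable_toSet fun _ _ => ht _)]
  have : (fun q : (ι → ℝ) × (ι → ℝ) => fun i => if p i then q.1 i else q.2 i) ⁻¹' (Set.pi s t) =
      (Set.pi (s.filter p) t) ×ˢ (Set.pi (s.filter fun i => ¬ p i) t) := by
    ext q
    simp only [mem_preimage, Set.mem_pi, Finset.mem_coe, mem_prod, Finset.mem_filter]
    constructor
    · intro h
      exact ⟨fun i hi => by simpa [hi.2] using h i hi.1, fun i hi => by simpa [hi.2] using h i hi.1⟩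
    · intro h i hi
      by_cases hp : p i
      · simpa [hp] using h.1 i ⟨hi, hp⟩
      · simpa [hp] using h.2 i ⟨hi, hp⟩
  rw [this, Measure.prod_prod, noise, Measure.infinitePi_pi _ (fun i _ => ht i),
    Measure.infinitePi_pi _ (fun i _ => ht i), Finset.prod_filter_mul_prod_filter_not]

lemma ae_injective [Countable V] :
    ∀ᵐ ω ∂(noise (V × ℕ)), ∀ u v : V, u ≠ v → ω (u, 0) ≠ ω (v, 0) := by
  refine ae_all_iff.2 fun u => ae_all_iff.2 fun v => ?_
  by_cases huv : u = v
  · simp [huv]
  simp only [ne_eq, huv, not_false_eq_true, true_implies]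
  have hd : MeasurableSet {q : ℝ × ℝ | q.1 = q.2} := measurableSet_eq_fun measurable_fst
    measurable_snd
  have h1 := Measure.infinitePi_map_eval_prod (P := fun _ : V × ℕ => lap)
    (i := (u, 0)) (j := (v, 0)) (by simpa using huv)
  have h2 : (lap.prod lap) {q : ℝ × ℝ | q.1 = q.2} = 0 := by
    rw [Measure.prod_apply hd]
    have : ∀ x : ℝ, Prod.mk x ⁻¹' {q : ℝ × ℝ | q.1 = q.2} = {x} := by
      intro x; ext y; simp [eq_comm]
    simp [this]
  rw [← h1, Measure.map_apply (by fun_prop) hd] at h2
  rw [ae_iff]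
  simpa [noise] using h2

lemma rank_inj {G : SimpleGraph V} (hG : ∀ v, (G.neighborSet v).Finite) {ω : V × ℕ → ℝ}
    {u v v' : V} (hv : G.Adj u v) (h : ω (v, 0) < ω (v', 0)) : rank G ω u v < rank G ω u v' := by
  refine ncard_lt_ncard ⟨fun w hw => ⟨hw.1, hw.2.trans h⟩, fun hc => ?_⟩
    ((hG u).subset fun w hw => hw.1)
  exact lt_irrefl _ (hc (show v ∈ _ from ⟨hv, h⟩)).2

theorem map_edgeNoise [Countable V] {G : SimpleGraph V} (hG : ∀ v, (G.neighborSet v).Finite) :
    (noise (V × ℕ)).map (fun ω => res G (edgeNoise G ω)) = noise G.edgeSet := by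
  have mF : Measurable fun ω => res G (edgeNoise G ω) :=
    (measurable_res G).comp (measurable_edgeNoise.comp (measurable_const.prodMk measurable_id))
  let mix : (V × ℕ → ℝ) × (V × ℕ → ℝ) → V × ℕ → ℝ :=
    fun q i => if i.2 = 0 then q.1 i else q.2 i
  have hm : Measurable mix := by
    refine measurable_pi_iff.2 fun i => ?_
    simp only [mix]
    split_ifs <;> fun_prop
  have h0 : ((noise (V × ℕ)).prod (noise (V × ℕ))).map mix = noise (V × ℕ) :=
    map_mix fun i : V × ℕ => i.2 = 0
  conv_lhs => rw [← h0]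
  rw [Measure.map_map mF hm]
  ext B hB
  rw [Measure.map_apply (mF.comp hm) hB, Measure.prod_apply ((mF.comp hm) hB)]
  have key : ∀ᵐ ω ∂(noise (V × ℕ)), noise (V × ℕ)
      (Prod.mk ω ⁻¹' (((fun ω => res G (edgeNoise G ω)) ∘ mix) ⁻¹' B)) = noise G.edgeSet B := by
    filter_upwards [ae_injective (V := V)] with ω hω
    have hex : ∀ e : G.edgeSet, ∃ p : V × V, (e : Sym2 V) = s(p.1, p.2) ∧ G.Adj p.1 p.2 ∧
        ω (p.1, 0) < ω (p.2, 0) := by
      rintro ⟨e, he⟩
      induction e using Sym2.ind with
      | _ u v =>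
      have huv : G.Adj u v := he
      rcases lt_or_gt_of_ne (hω u v huv.ne) with h | h
      · exact ⟨(u, v), rfl, huv, h⟩
      · exact ⟨(v, u), Sym2.eq_swap, huv.symm, h⟩
    choose p hp1 hp2 hp3 using hex
    let j : G.edgeSet → V × ℕ := fun e => ((p e).1, rank G ω (p e).1 (p e).2 + 1)
    have hj : Function.Injective j := by
      intro e e' h
      simp only [j, Prod.mk.injEq, add_left_inj] at h
      obtain ⟨h1, h2⟩ := h
      have h3 : (p e).2 = (p e').2 := by
        by_contra hne
        rcases lt_or_gt_of_ne (hω _ _ hne) with h | h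
        · have := rank_inj hG (hp2 e) h
          rw [← h1] at h2
          omega
        · have := rank_inj hG (hp2 e') h
          rw [h1] at h2
          omega
      apply Subtype.ext
      rw [hp1 e, hp1 e', h1, h3]
    have hF : ∀ ω', res G (edgeNoise G (mix (ω, ω'))) = fun e => ω' (j e) := by
      intro ω'
      ext e
      have hr : ∀ u v, rank G (mix (ω, ω')) u v = rank G ω u v := fun u v => by
        simp [rank, mix]
      simp only [res]
      rw [hp1 e]
      simp [edgeNoise, half, mix, hr, hp3 e, (hp3 e).not_gt, j]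
    have h2 := Measure.map_infinitePi_infinitePi_of_inj (P := fun _ : V × ℕ => lap) hj
    have h3 : Prod.mk ω ⁻¹' (((fun ω => res G (edgeNoise G ω)) ∘ mix) ⁻¹' B) =
        (fun (ω' : V × ℕ → ℝ) e => ω' (j e)) ⁻¹' B := by
      ext ω'
      simp only [mem_preimage, Function.comp_apply, hF]
    rw [h3, ← Measure.map_apply (by fun_prop) hB]
    exact congrArg (fun μ : Measure (G.edgeSet → ℝ) => μ B) h2
  rw [lintegral_congr_ae key]
  simp

/-! ### the factor map -/

/-- a measurable splitting of one uniform variable into an i.i.d. Laplace sequence -/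
noncomputable def split : unitInterval → ℕ → ℝ :=
  (Measure.exists_measurable_map_eq (noise ℕ)).choose

lemma measurable_split : Measurable split :=
  (Measure.exists_measurable_map_eq (noise ℕ)).choose_spec.1

lemma map_split : (volume : Measure unitInterval).map split = noise ℕ :=
  (Measure.exists_measurable_map_eq (noise ℕ)).choose_spec.2

/-- the array of variables read off the labels -/
noncomputable def lab (U : V → unitInterval) : V × ℕ → ℝ := fun p => split (U p.1) p.2

lemma measurable_lab : Measurable (lab : (V → unitInterval) → V × ℕ → ℝ) :=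
  measurable_pi_iff.2 fun p =>
    (measurable_pi_apply p.2).comp (measurable_split.comp (measurable_pi_apply p.1))

lemma map_lab : (iidLabels V).map lab = noise (V × ℕ) := by
  have h1 := Measure.infinitePi_map_pi (fun _ : V => (volume : Measure unitInterval))
    (f := fun _ => split) fun _ => measurable_split
  simp only [map_split] at h1
  have h2 := Measure.infinitePi_map_curry_symm (fun (_ : V) (_ : ℕ) => lap)
  have h3 : (lab : (V → unitInterval) → V × ℕ → ℝ) =
      (MeasurableEquiv.curry V ℕ ℝ).symm ∘ fun x i => split (x i) := rfl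
  rw [h3, ← Measure.map_map (MeasurableEquiv.measurable _)
    (measurable_pi_iff.2 fun v => measurable_split.fun_comp (measurable_pi_apply v)), iidLabels, h1]
  exact h2

/-- the factor map -/
noncomputable def factor (G : SimpleGraph V) (U : V → unitInterval) (e : Sym2 V) : Bool :=
  xx G.edgeSet (edgeNoise G (lab U)) e

theorem measurable_factor [Countable V] (e : Sym2 V) :
    Measurable fun p : SimpleGraph V × (V → unitInterval) => factor p.1 p.2 e :=
  (measurable_xx e).comp ((measurable_edgeSet.comp measurable_fst).prodMk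
    (measurable_edgeNoise.comp (measurable_fst.prodMk (measurable_lab.comp measurable_snd))))

theorem factor_map {W : Type*} {G : SimpleGraph V} {G' : SimpleGraph W} (σ : G ≃g G')
    (U : V → unitInterval) (e : Sym2 V) :
    factor G' (fun w => U (σ.symm w)) (e.map σ) = factor G U e := by
  refine xx_map σ.toEquiv (fun f => ?_) (fun f => ?_) e
  · exact σ.map_mem_edgeSet_iff
  · exact edgeNoise_map σ (fun v i => by simp [lab]) f

theorem isFUSF_factor {G : SimpleGraph V} (hG : ∀ v, (G.neighborSet v).Finite)
    (hc : G.Connected) :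
    IsFUSF G ((iidLabels V).map fun U (e : G.edgeSet) => factor G U e) := by
  have := countable_of_connected hG hc
  have m1 : Measurable (edgeNoise G) :=
    measurable_edgeNoise.comp (measurable_const.prodMk measurable_id)
  have h1 := law_eq G (P := iidLabels V) (ξ := fun U => edgeNoise G (lab U))
    (m1.comp measurable_lab) (by
      rw [← map_edgeNoise hG, ← map_lab, Measure.map_map ((measurable_res G).fun_comp m1)
        measurable_lab]
      rfl)
  have h2 := isFUSF_noise hG hc
  rw [← h1] at h2
  exact h2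

end Vale.Agent.P143
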