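import Vale.Agent.P143.Defs

open MeasureTheory
open scoped ENNReal

namespace Vale.Agent.P143

/-- A unimodular random rooted graph, represented by a random connected locally finite graph on the
vertex set `ℕ` with a random root: the mass transport principle holds for every nonnegative
measurable isomorphism-invariant function of graphs with two distinguished vertices. -/
def IsUnimodular (P : Measure (SimpleGraph ℕ × ℕ)) : Prop :=
  IsProbabilityMeasure P ∧
  (∀ᵐ x ∂P, x.1.Connected ∧ ∀ v, (x.1.neighborSet v).Finite) ∧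
  ∀ f : SimpleGraph ℕ × ℕ × ℕ → ℝ≥0∞, Measurable f →
    (∀ (G G' : SimpleGraph ℕ) (σ : G ≃g G') (u v : ℕ), f (G', σ u, σ v) = f (G, u, v)) →
    ∫⁻ x, ∑' v, f (x.1, x.2, v) ∂P = ∫⁻ x, ∑' v, f (x.1, v, x.2) ∂P

end Vale.Agent.P143
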